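import Vale.Agent.P192.R2.H51L.Fpb

/-!
# P192: groups of piecewise similarities: the Burnside class
-/

namespace Vale.Agent.P192.R2.H51L

open Set

universe u v w

/-- Every homomorphism from a finitely generated periodic group to `G` has finite image. -/
def Bur (G : Type*) [Group G] : Prop :=
  ∀ (Γ : Type) [Group Γ], Group.FG Γ → (∀ x : Γ, IsOfFinOrder x) →
    ∀ f : Γ →* G, Finite f.range

theorem bur_of_injective {G : Type u} {H : Type v} [Group G] [Group H] (f : G →* H)
    (hf : Function.Injective f) (hH : Bur H) : Bur G := by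
  intro Γ _ hΓ ht g
  have h := hH Γ hΓ ht (f.comp g)
  have hinj : Function.Injective (fun x : g.range => (⟨f x.1, by
      obtain ⟨y, hy⟩ := x.2
      exact ⟨y, by rw [MonoidHom.comp_apply, hy]⟩⟩ : (f.comp g).range)) := by
    intro x y hxy
    exact Subtype.ext (hf (congrArg Subtype.val hxy))
  exact Finite.of_injective _ hinj

theorem bur_of_finite (G : Type u) [Group G] [Finite G] : Bur G :=
  fun _ _ _ _ _ => inferInstance

theorem bur_ext {G : Type u} {Q : Type v} [Group G] [Group Q] (q : G →* Q) (hQ : Bur Q)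
    (hk : Bur q.ker) : Bur G := by
  intro Γ _ hΓ ht f
  have h1 : Finite (q.comp f).range := hQ Γ hΓ ht (q.comp f)
  set K : Subgroup Γ := (q.comp f).ker with hK
  have hfi : K.FiniteIndex := by
    have : Finite (Γ ⧸ K) := Finite.of_equiv _
      (QuotientGroup.quotientKerEquivRange (q.comp f)).toEquiv.symm
    exact Subgroup.finiteIndex_of_finite_quotient
  have hKfg : Group.FG K := by
    have : Group.FG Γ := hΓ
    infer_instance
  have hKt : ∀ x : K, IsOfFinOrder x := by
    intro x
    exact (Submonoid.isOfFinOrder_coe (H := K.toSubmonoid) (x := x)).1 (ht x.1)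
  let f' : K →* q.ker := (f.comp K.subtype).codRestrict q.ker (fun x => x.2)
  have h2 : Finite f'.range := hk K hKfg hKt f'
  have h3 : (f '' (K : Set Γ)).Finite := by
    have : f '' (K : Set Γ) ⊆ Subtype.val '' (f'.range : Set q.ker) := by
      rintro _ ⟨x, hx, rfl⟩
      exact ⟨f' ⟨x, hx⟩, ⟨⟨x, hx⟩, rfl⟩, rfl⟩
    exact ((Set.toFinite (f'.range : Set q.ker)).image _).subset this
  have hfq : Finite (Γ ⧸ K) := inferInstance
  have h4 : (f.range : Set G) ⊆ ⋃ c : Γ ⧸ K, (fun y => f (Quotient.out c) * y) '' (f '' (K : Set Γ)) := by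
    rintro _ ⟨x, rfl⟩
    rw [Set.mem_iUnion]
    refine ⟨QuotientGroup.mk x, f ((Quotient.out (QuotientGroup.mk x : Γ ⧸ K))⁻¹ * x),
      ⟨_, ?_, rfl⟩, ?_⟩
    · have : (QuotientGroup.mk (Quotient.out (QuotientGroup.mk x : Γ ⧸ K)) : Γ ⧸ K)
        = QuotientGroup.mk x := Quotient.out_eq _
      exact QuotientGroup.eq.1 this
    · simp
  exact (Set.finite_iUnion (fun c => h3.image _)).subset h4

theorem bur_pi {ι : Type w} [Finite ι] {G : ι → Type u} [∀ i, Group (G i)] (h : ∀ i, Bur (G i)) :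
    Bur (∀ i, G i) := by
  intro Γ _ hΓ ht f
  have h1 : ∀ i, Finite ((Pi.evalMonoidHom G i).comp f).range := fun i => h i Γ hΓ ht _
  have hinj : Function.Injective (fun x : f.range => (fun i => (⟨x.1 i, by
      obtain ⟨y, hy⟩ := x.2
      exact ⟨y, by rw [MonoidHom.comp_apply, hy]; rfl⟩⟩ :
        ((Pi.evalMonoidHom G i).comp f).range))) := by
    intro x y hxy
    apply Subtype.ext
    funext i
    exact congrArg Subtype.val (congrFun hxy i)
  exact Finite.of_injective _ hinj

/-- it suffices to treat finitely generated periodic subgroups -/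
theorem bur_of_fgp {G : Type u} [Group G]
    (h : ∀ K : Subgroup G, K.FG → (∀ x ∈ K, IsOfFinOrder x) → Bur K) : Bur G := by
  intro Γ _ hΓ ht f
  have hfg : Group.FG Γ := hΓ
  have hr : Group.FG f.range := Group.fg_range f
  have hp : ∀ x ∈ f.range, IsOfFinOrder x := by
    rintro _ ⟨x, rfl⟩
    exact MonoidHom.isOfFinOrder f (ht x)
  have h1 := h f.range ((Group.fg_iff_subgroup_fg _).1 hr) hp Γ hΓ ht f.rangeRestrict
  have h2 : f.rangeRestrict.range = ⊤ := MonoidHom.range_eq_top.2 f.rangeRestrict_surjective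
  rw [h2] at h1
  exact Finite.of_equiv _ Subgroup.topEquiv.toEquiv

/-- commutative groups -/
theorem bur_comm {G : Type u} [Group G] (h : ∀ x y : G, x * y = y * x) : Bur G := by
  intro Γ _ hΓ ht f
  have hfg : Group.FG Γ := hΓ
  have hr : Group.FG f.range := Group.fg_range f
  let _ : CommGroup f.range := { (inferInstance : Group f.range) with
    mul_comm := fun a b => Subtype.ext (h a.1 b.1) }
  apply CommGroup.finite_of_fg_isMulTorsion f.range
  rintro ⟨_, ⟨x, rfl⟩⟩
  exact (Submonoid.isOfFinOrder_coe (H := f.range.toSubmonoid)).1 (MonoidHom.isOfFinOrder f (ht x))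

variable {Ω : Type u} (S : Sim Ω)

/-- **groups of piecewise similarities, Burnside class** -/
theorem bur_sim (G : Subgroup (Equiv.Perm Ω)) (hc : ∀ g ∈ G, Cov S g)
    (hloc : ∀ U ∈ S.B, ∃ L : Subgroup (Equiv.Perm U), Bur L ∧
      ∀ g ∈ G, S.good g U → g '' U = U → ∃ σ ∈ L, ∀ x : U, (σ x : Ω) = g x) : Bur G := by
  apply bur_of_fgp
  intro K' hK' ht'
  let K : Subgroup (Equiv.Perm Ω) := K'.map G.subtype
  have hKG : K ≤ G := by
    rintro _ ⟨x, -, rfl⟩
    exact x.2
  suffices hK : Bur K by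
    refine bur_of_injective (f := ((Subgroup.equivMapOfInjective K' G.subtype
      G.subtype_injective).toMonoidHom : K' →* K)) (MulEquiv.injective _) hK
  have hKfg : K.FG := by
    have h1 : Group.FG K' := (Group.fg_iff_subgroup_fg _).2 hK'
    let e : K' →* K := (Subgroup.equivMapOfInjective K' G.subtype G.subtype_injective).toMonoidHom
    have he : Function.Surjective e := MulEquiv.surjective _
    exact (Group.fg_iff_subgroup_fg _).1 (Group.fg_of_surjective he)
  have hKt : ∀ k ∈ K, IsOfFinOrder k := by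
    rintro _ ⟨x, hx, rfl⟩
    exact MonoidHom.isOfFinOrder G.subtype (ht' x hx)
  obtain ⟨hPf, hPu⟩ := parts_finite_cover S K hKfg hKt (fun k hk => hc k (hKG hk))
  have hfin : Finite (Parts S K) := hPf
  refine bur_ext (actParts S K) (bur_of_finite _) ?_
  choose L hLF hL using hloc
  have hL' : ∀ U : Parts S K, ∀ g ∈ K, S.good g U.1 → g '' U.1 = U.1 →
      ∃ σ ∈ L U.1 U.2.1.1, ∀ x : U.1, (σ x : Ω) = g x :=
    fun U g hg => hL U.1 U.2.1.1 g (hKG hg)
  choose r hr using fun U : Parts S K => exists_resHom S K U _ (hL' U)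
  let F : (actParts S K).ker →* (∀ U : Parts S K, L U.1 U.2.1.1) :=
    MonoidHom.mk' (fun k U => r U k) (by
      intro a b
      funext U
      exact map_mul _ a b)
  refine bur_of_injective F ?_ (bur_pi (fun U => hLF U.1 U.2.1.1))
  intro a b hab
  apply Subtype.ext
  apply Subtype.ext
  apply Equiv.ext
  intro x
  have hxu : x ∈ ⋃₀ Parts S K := by rw [hPu]; exact mem_univ _
  obtain ⟨U, hU, hxU⟩ := hxu
  have h1 : r ⟨U, hU⟩ a = r ⟨U, hU⟩ b := congrFun hab ⟨U, hU⟩
  have h2 := hr ⟨U, hU⟩ a ⟨x, hxU⟩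
  have h3 := hr ⟨U, hU⟩ b ⟨x, hxU⟩
  rw [h1] at h2
  exact h2.symm.trans h3

end Vale.Agent.P192.R2.H51L
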