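import Vale.Agent.P192.H663.Calc

/-!
# P192: groups of piecewise similarities: invariant finite partitions
-/

namespace Vale.Agent.P192.R2.H51L

open Set

/-- A system of balls of a set `Ω`, and of pairs (permutation `g`, ball `U`) such that `g` is a
similarity on `U`. -/
structure Sim (Ω : Type*) where
  /-- the balls -/
  B : Set (Set Ω)
  /-- `g` is a similarity on `U` -/
  good : Equiv.Perm Ω → Set Ω → Prop
  ne : ∀ U ∈ B, U.Nonempty
  nest : ∀ U ∈ B, ∀ V ∈ B, U ⊆ V ∨ V ⊆ U ∨ Disjoint U V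
  fin : ∀ U ∈ B, {V | V ∈ B ∧ U ⊆ V}.Finite
  one : ∀ U ∈ B, good 1 U
  img : ∀ g, ∀ U ∈ B, good g U → g '' U ∈ B
  inv : ∀ g, ∀ U ∈ B, good g U → good g⁻¹ (g '' U)
  mul : ∀ g h, ∀ U ∈ B, good g U → good h (g '' U) → good (h * g) U
  res : ∀ g, ∀ U ∈ B, ∀ V ∈ B, V ⊆ U → good g U → good g V

variable {Ω : Type*} (S : Sim Ω)

theorem image_inv_image (g : Equiv.Perm Ω) (U : Set Ω) : (g⁻¹ : Equiv.Perm Ω) '' (g '' U) = U := by
  rw [← image_comp]
  have h : ((g⁻¹ : Equiv.Perm Ω) : Ω → Ω) ∘ g = id := by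
    funext x
    simp
  rw [h, image_id]

theorem image_image_inv (g : Equiv.Perm Ω) (U : Set Ω) : g '' ((g⁻¹ : Equiv.Perm Ω) '' U) = U := by
  have := image_inv_image g⁻¹ U
  rwa [inv_inv] at this

theorem image_mul' (g h : Equiv.Perm Ω) (U : Set Ω) : (g * h) '' U = g '' (h '' U) := by
  rw [← image_comp]; rfl

theorem image_one' (U : Set Ω) : (1 : Equiv.Perm Ω) '' U = U := by
  have : ((1 : Equiv.Perm Ω) : Ω → Ω) = id := rfl
  rw [this, image_id]

/-- a finite order element does not move a set strictly inside itself -/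
theorem no_shrink (d : Equiv.Perm Ω) (hd : IsOfFinOrder d) (U : Set Ω) (h : d '' U ⊂ U) :
    False := by
  obtain ⟨n, hn, hdn⟩ := isOfFinOrder_iff_pow_eq_one.1 hd
  have key : ∀ k : ℕ, (d ^ (k + 1)) '' U ⊂ U := by
    intro k
    induction k with
    | zero => simpa using h
    | succ k ih =>
      rw [pow_succ, image_mul']
      exact lt_of_le_of_lt (image_mono h.1) ih
  obtain ⟨k, rfl⟩ : ∃ k, n = k + 1 := ⟨n - 1, by omega⟩
  have := key k
  rw [hdn, image_one'] at this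
  exact this.2 (le_refl U)

/-- all elements of `K` are good on the ball `U` -/
def AllGood (K : Subgroup (Equiv.Perm Ω)) (U : Set Ω) : Prop :=
  U ∈ S.B ∧ ∀ k ∈ K, S.good k U

/-- `g` is good on the members of a finite cover by balls -/
def Cov (g : Equiv.Perm Ω) : Prop :=
  ∃ C : Set (Set Ω), C.Finite ∧ C ⊆ S.B ∧ ⋃₀ C = univ ∧ ∀ U ∈ C, S.good g U

/-- balls that are not a finite union of good ones -/
def Bad (K : Subgroup (Equiv.Perm Ω)) (U : Set Ω) : Prop :=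
  U ∈ S.B ∧ ¬ ∃ F : Set (Set Ω), F.Finite ∧ (∀ V ∈ F, AllGood S K V) ∧ U ⊆ ⋃₀ F

theorem exists_J (K : Subgroup (Equiv.Perm Ω)) (hK : K.FG) (hc : ∀ k ∈ K, Cov S k) :
    ∃ J : Set (Set Ω), J.Finite ∧ ∀ U, Bad S K U → ∃ g ∈ K, g '' U ∈ J ∧
      ∃ V, Bad S K V ∧ V ⊂ U := by
  classical
  obtain ⟨T, hT⟩ := hK
  choose C hCf hCB hCu hCg using hc
  have hTK : ∀ t ∈ T, t ∈ K := fun t ht => by
    rw [← hT]; exact Subgroup.subset_closure ht
  set CC : Set (Set Ω) := ⋃ t : T, (C t.1 (hTK t.1 t.2) ∪ C t.1⁻¹ (K.inv_mem (hTK t.1 t.2)))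
    with hCC
  have hCCf : CC.Finite := by
    apply Set.finite_iUnion
    intro t
    exact (hCf _ _).union (hCf _ _)
  have hCCB : CC ⊆ S.B := by
    intro U hU
    rw [hCC, mem_iUnion] at hU
    obtain ⟨t, ht | ht⟩ := hU
    · exact hCB _ _ ht
    · exact hCB _ _ ht
  refine ⟨⋃ c ∈ CC, {V | V ∈ S.B ∧ c ⊆ V}, hCCf.biUnion (fun c hc => S.fin c (hCCB hc)), ?_⟩
  intro U hU
  -- `U` is not all-good
  have hUn : ¬ AllGood S K U := by
    intro h
    exact hU.2 ⟨{U}, finite_singleton U, by rintro V rfl; exact h, by simp⟩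
  -- a good element and a generator
  obtain ⟨g, hgK, hgU, t, htK, htC, hno⟩ : ∃ g ∈ K, S.good g U ∧ ∃ (t : Equiv.Perm Ω)
      (htK : t ∈ K), C t htK ⊆ CC ∧ ∀ c ∈ C t htK, ¬ g '' U ⊆ c := by
    by_contra hcon
    push Not at hcon
    apply hUn
    refine ⟨hU.1, ?_⟩
    intro k hk
    have hk' : k ∈ Subgroup.closure (T : Set (Equiv.Perm Ω)) := by rw [hT]; exact hk
    induction hk' using Subgroup.closure_induction_left with
    | one => exact S.one U hU.1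
    | mul_left x hx y hy ih =>
      have hyK : y ∈ K := by rw [← hT]; exact hy
      have h1 := ih hyK
      obtain ⟨c, hc, hcy⟩ := hcon y hyK h1 x (hTK x hx) (by
        intro c hc
        rw [hCC, mem_iUnion]
        exact ⟨⟨x, hx⟩, Or.inl hc⟩)
      exact S.mul y x U hU.1 h1 (S.res x c (hCB _ _ hc) _ (S.img y U hU.1 h1) hcy (hCg _ _ c hc))
    | inv_mul_cancel x hx y hy ih =>
      have hyK : y ∈ K := by rw [← hT]; exact hy
      have h1 := ih hyK
      obtain ⟨c, hc, hcy⟩ := hcon y hyK h1 x⁻¹ (K.inv_mem (hTK x hx)) (by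
        intro c hc
        rw [hCC, mem_iUnion]
        exact ⟨⟨x, hx⟩, Or.inr hc⟩)
      exact S.mul y x⁻¹ U hU.1 h1
        (S.res x⁻¹ c (hCB _ _ hc) _ (S.img y U hU.1 h1) hcy (hCg _ _ c hc))
  have hgB : g '' U ∈ S.B := S.img g U hU.1 hgU
  -- members of the cover meeting the image lie inside it
  have hin : ∀ c ∈ C t htK, (c ∩ g '' U).Nonempty → c ⊂ g '' U := by
    intro c hc hne
    rcases S.nest c (hCB _ _ hc) _ hgB with h | h | h
    · exact ⟨h, hno c hc⟩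
    · exact absurd h (hno c hc)
    · exact absurd hne (by rw [not_nonempty_iff_eq_empty]; exact h.inter_eq)
  refine ⟨g, hgK, ?_, ?_⟩
  · obtain ⟨x, hx⟩ := S.ne _ hgB
    have hxu : x ∈ ⋃₀ C t htK := by rw [hCu]; exact mem_univ x
    obtain ⟨c, hc, hxc⟩ := hxu
    rw [mem_iUnion₂]
    exact ⟨c, htC hc, hgB, (hin c hc ⟨x, hxc, hx⟩).1⟩
  · by_contra hcon
    push Not at hcon
    -- all the preimages are finite unions of good balls
    have hD : ∀ c ∈ {c | c ∈ C t htK ∧ (c ∩ g '' U).Nonempty}, ∃ F : Set (Set Ω), F.Finite ∧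
        (∀ V ∈ F, AllGood S K V) ∧ (g⁻¹ : Equiv.Perm Ω) '' c ⊆ ⋃₀ F := by
      rintro c ⟨hc, hne⟩
      have hcU := hin c hc hne
      have hgi : S.good g⁻¹ c :=
        S.res g⁻¹ _ hgB c (hCB _ _ hc) hcU.1 (S.inv g U hU.1 hgU)
      by_contra hF
      refine hcon ((g⁻¹ : Equiv.Perm Ω) '' c) ⟨S.img _ _ (hCB _ _ hc) hgi, hF⟩ ?_
      have h2 : (g⁻¹ : Equiv.Perm Ω) '' c ⊆ U := by
        have := image_mono (f := (g⁻¹ : Equiv.Perm Ω)) hcU.1
        rwa [image_inv_image] at this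
      refine ⟨h2, fun h3 => hcU.2 ?_⟩
      have := image_mono (f := g) h3
      rwa [image_image_inv] at this
    choose! F hFf hFg hFc using hD
    have hfin : {c | c ∈ C t htK ∧ (c ∩ g '' U).Nonempty}.Finite :=
      (hCf t htK).subset (fun c hc => hc.1)
    refine hU.2 ⟨⋃ c ∈ {c | c ∈ C t htK ∧ (c ∩ g '' U).Nonempty}, F c,
      hfin.biUnion hFf, ?_, ?_⟩
    · intro V hV
      rw [mem_iUnion₂] at hV
      obtain ⟨c, hc, hV⟩ := hV
      exact hFg c hc V hV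
    · intro x hx
      have hxu : g x ∈ ⋃₀ C t htK := by rw [hCu]; exact mem_univ _
      obtain ⟨c, hc, hxc⟩ := hxu
      have hcm : c ∈ {c | c ∈ C t htK ∧ (c ∩ g '' U).Nonempty} :=
        ⟨hc, g x, hxc, mem_image_of_mem _ hx⟩
      obtain ⟨V, hV, hxV⟩ := hFc c hcm ⟨g x, hxc, (by simp : g⁻¹ (g x) = x)⟩
      exact ⟨V, mem_iUnion₂.2 ⟨c, hcm, hV⟩, hxV⟩

/-- **the covering theorem** -/
theorem exists_cover (K : Subgroup (Equiv.Perm Ω)) (hK : K.FG) (ht : ∀ k ∈ K, IsOfFinOrder k)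
    (hc : ∀ k ∈ K, Cov S k) :
    ∃ F : Set (Set Ω), F.Finite ∧ (∀ V ∈ F, AllGood S K V) ∧ ⋃₀ F = univ := by
  classical
  by_contra hno
  obtain ⟨J, hJ, hstep⟩ := exists_J S K hK hc
  -- some ball is bad
  obtain ⟨U₀, hU₀⟩ : ∃ U, Bad S K U := by
    by_contra hb
    push Not at hb
    obtain ⟨C, hCf, hCB, hCu, -⟩ := hc 1 K.one_mem
    have hD : ∀ c ∈ C, ∃ F : Set (Set Ω), F.Finite ∧ (∀ V ∈ F, AllGood S K V) ∧ c ⊆ ⋃₀ F := by
      intro c hc
      by_contra hF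
      exact hb c ⟨hCB hc, hF⟩
    choose! F hFf hFg hFc using hD
    refine hno ⟨⋃ c ∈ C, F c, hCf.biUnion hFf, ?_, ?_⟩
    · intro V hV
      rw [mem_iUnion₂] at hV
      obtain ⟨c, hc, hV⟩ := hV
      exact hFg c hc V hV
    · rw [eq_univ_iff_forall]
      intro x
      have hxu : x ∈ ⋃₀ C := by rw [hCu]; exact mem_univ _
      obtain ⟨c, hc, hxc⟩ := hxu
      obtain ⟨V, hV, hxV⟩ := hFc c hc hxc
      exact ⟨V, mem_iUnion₂.2 ⟨c, hc, hV⟩, hxV⟩
  choose! g hgK hgJ V hVb hVU using hstep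
  -- a decreasing chain
  let f : ℕ → Set Ω := fun n => Nat.rec U₀ (fun _ U => V U) n
  have hf0 : f 0 = U₀ := rfl
  have hfs : ∀ n, f (n + 1) = V (f n) := fun n => rfl
  have hfb : ∀ n, Bad S K (f n) := by
    intro n
    induction n with
    | zero => exact hU₀
    | succ n ih => rw [hfs]; exact hVb _ ih
  have hlt : StrictAnti f := by
    apply strictAnti_nat_of_succ_lt
    intro n
    rw [hfs]
    exact hVU _ (hfb n)
  have hmaps : ∀ n, g (f n) '' f n ∈ J := fun n => hgJ _ (hfb n)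
  obtain ⟨m, n, hmn, heq⟩ : ∃ m n, m < n ∧ g (f m) '' f m = g (f n) '' f n := by
    have : Finite J := hJ
    obtain ⟨m, n, hne, h⟩ := Finite.exists_ne_map_eq_of_infinite
      (fun n : ℕ => (⟨g (f n) '' f n, hmaps n⟩ : J))
    have h' := congrArg Subtype.val h
    rcases lt_or_gt_of_ne hne with h1 | h1
    · exact ⟨m, n, h1, h'⟩
    · exact ⟨n, m, h1, h'.symm⟩
  -- contradiction to periodicity
  have hd : ((g (f n))⁻¹ * g (f m)) '' f m = f n := by
    rw [image_mul', heq, image_inv_image]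
  refine no_shrink ((g (f n))⁻¹ * g (f m))
    (ht _ (K.mul_mem (K.inv_mem (hgK _ (hfb n))) (hgK _ (hfb m)))) (f m) ?_
  rw [hd]
  exact hlt hmn

/-- maximal balls on which all elements of `K` are good -/
def Parts (K : Subgroup (Equiv.Perm Ω)) : Set (Set Ω) :=
  {U | AllGood S K U ∧ ∀ V, AllGood S K V → U ⊆ V → V = U}

theorem allGood_image (K : Subgroup (Equiv.Perm Ω)) {k : Equiv.Perm Ω} (hk : k ∈ K) {U : Set Ω}
    (hU : AllGood S K U) : AllGood S K (k '' U) := by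
  refine ⟨S.img k U hU.1 (hU.2 k hk), fun k' hk' => ?_⟩
  have h1 : S.good k⁻¹ (k '' U) := S.inv k U hU.1 (hU.2 k hk)
  have h2 : S.good (k' * k) ((k⁻¹ : Equiv.Perm Ω) '' (k '' U)) := by
    rw [image_inv_image]; exact hU.2 _ (K.mul_mem hk' hk)
  have := S.mul k⁻¹ (k' * k) (k '' U) (S.img k U hU.1 (hU.2 k hk)) h1 h2
  rwa [mul_inv_cancel_right] at this

theorem parts_image (K : Subgroup (Equiv.Perm Ω)) {k : Equiv.Perm Ω} (hk : k ∈ K) {U : Set Ω}
    (hU : U ∈ Parts S K) : k '' U ∈ Parts S K := by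
  refine ⟨allGood_image S K hk hU.1, fun V hV hsub => ?_⟩
  have h1 : U ⊆ (k⁻¹ : Equiv.Perm Ω) '' V := by
    have := image_mono (f := (k⁻¹ : Equiv.Perm Ω)) hsub
    rwa [image_inv_image] at this
  have h2 := hU.2 _ (allGood_image S K (K.inv_mem hk) hV) h1
  rw [← h2, image_image_inv]

theorem parts_disjoint (K : Subgroup (Equiv.Perm Ω)) {U V : Set Ω} (hU : U ∈ Parts S K)
    (hV : V ∈ Parts S K) (h : (U ∩ V).Nonempty) : U = V := by
  rcases S.nest U hU.1.1 V hV.1.1 with h1 | h1 | h1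
  · exact (hU.2 V hV.1 h1).symm
  · exact hV.2 U hU.1 h1
  · exact absurd h (by rw [not_nonempty_iff_eq_empty]; exact h1.inter_eq)

theorem exists_parts (K : Subgroup (Equiv.Perm Ω)) {A : Set Ω} (hA : AllGood S K A) :
    ∃ U ∈ Parts S K, A ⊆ U := by
  have hf : {V | V ∈ S.B ∧ A ⊆ V}.Finite := S.fin A hA.1
  have hf' : {V | AllGood S K V ∧ A ⊆ V}.Finite := hf.subset (fun V hV => ⟨hV.1.1, hV.2⟩)
  obtain ⟨U, hAU, hU⟩ := hf'.exists_le_maximal ⟨hA, le_refl A⟩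
  refine ⟨U, ⟨hU.1.1, fun V hV hUV => ?_⟩, hAU⟩
  exact le_antisymm (hU.2 ⟨hV, hU.1.2.trans hUV⟩ hUV) hUV

theorem parts_finite_cover (K : Subgroup (Equiv.Perm Ω)) (hK : K.FG)
    (ht : ∀ k ∈ K, IsOfFinOrder k) (hc : ∀ k ∈ K, Cov S k) :
    (Parts S K).Finite ∧ ⋃₀ Parts S K = univ := by
  obtain ⟨F, hF, hFg, hFu⟩ := exists_cover S K hK ht hc
  refine ⟨?_, ?_⟩
  · refine (hF.biUnion (t := fun A => {V | V ∈ S.B ∧ A ⊆ V})
      (fun A hA => S.fin A (hFg A hA).1)).subset ?_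
    intro U hU
    obtain ⟨x, hx⟩ := S.ne U hU.1.1
    have hxu : x ∈ ⋃₀ F := by rw [hFu]; exact mem_univ _
    obtain ⟨A, hA, hxA⟩ := hxu
    rw [mem_iUnion₂]
    refine ⟨A, hA, hU.1.1, ?_⟩
    rcases S.nest U hU.1.1 A (hFg A hA).1 with h1 | h1 | h1
    · rw [hU.2 A (hFg A hA) h1]
    · exact h1
    · exact absurd hxA (disjoint_left.1 h1 hx)
  · rw [eq_univ_iff_forall]
    intro x
    have hxu : x ∈ ⋃₀ F := by rw [hFu]; exact mem_univ _
    obtain ⟨A, hA, hxA⟩ := hxu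
    obtain ⟨U, hU, hAU⟩ := exists_parts S K (hFg A hA)
    exact ⟨U, hU, hAU hxA⟩

end Vale.Agent.P192.R2.H51L
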