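import Vale.Agent.P192.R2.H51L.Fpb

/-!
# P192: piecewise similarities of free modules over discrete valuation rings
-/

namespace Vale.Agent.P192.R2.H51L

open Set Matrix

variable {R : Type*} [CommRing R] {n : Type*}

/-- ball with centre `a` -/
def ball (a : n → R) (I : Ideal R) : Set (n → R) := {x | ∀ i, x i - a i ∈ I}

theorem mem_ball {a x : n → R} {I : Ideal R} : x ∈ ball a I ↔ ∀ i, x i - a i ∈ I := Iff.rfl

theorem self_mem_ball (a : n → R) (I : Ideal R) : a ∈ ball a I := fun i => by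
  rw [sub_self]; exact I.zero_mem

/-- the balls -/
def balls (R : Type*) [CommRing R] (n : Type*) : Set (Set (n → R)) :=
  {U | ∃ (a : n → R) (I : Ideal R), I ≠ ⊥ ∧ U = ball a I}

theorem ball_eq {a b : n → R} {I : Ideal R} (h : b ∈ ball a I) : ball a I = ball b I := by
  ext x
  constructor
  · intro hx i
    have := I.sub_mem (hx i) (h i)
    rwa [sub_sub_sub_cancel_right] at this
  · intro hx i
    have := I.add_mem (hx i) (h i)
    rwa [sub_add_sub_cancel] at this

theorem ball_mono (a : n → R) {I J : Ideal R} (h : I ≤ J) : ball a I ⊆ ball a J :=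
  fun _ hx i => h (hx i)

/-- `g` is a similarity on `U` -/
def Simil [Fintype n] [DecidableEq n] (g : Equiv.Perm (n → R)) (U : Set (n → R)) : Prop :=
  ∃ r s : R, r ≠ 0 ∧ s ≠ 0 ∧ ∃ A : GL n R, ∀ x ∈ U, ∀ y ∈ U,
    s • (g x - g y) = r • (A.1 *ᵥ (x - y))

theorem mulVec_mem [Fintype n] (A : Matrix n n R) (v : n → R) (I : Ideal R) (hv : ∀ i, v i ∈ I)
    (i : n) : (A *ᵥ v) i ∈ I := by
  rw [Matrix.mulVec, dotProduct]
  exact I.sum_mem (fun j _ => I.mul_mem_left _ (hv j))

theorem GL_inv_mulVec [Fintype n] [DecidableEq n] (A : GL n R) (v : n → R) :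
    A.1 *ᵥ ((A⁻¹ : GL n R).1 *ᵥ v) = v := by
  rw [Matrix.mulVec_mulVec, ← Units.val_mul, mul_inv_cancel, Units.val_one, Matrix.one_mulVec]

theorem GL_inv_mulVec' [Fintype n] [DecidableEq n] (A : GL n R) (v : n → R) :
    (A⁻¹ : GL n R).1 *ᵥ (A.1 *ᵥ v) = v := by
  rw [Matrix.mulVec_mulVec, ← Units.val_mul, inv_mul_cancel, Units.val_one, Matrix.one_mulVec]

section domain

variable [IsDomain R] [Fintype n] [DecidableEq n] [Nonempty n]

/-- the image of a ball -/
theorem simil_image (g : Equiv.Perm (n → R)) (a : n → R) (I : Ideal R) (hI : I ≠ ⊥)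
    (hg : Simil g (ball a I)) : ∃ J : Ideal R, J ≠ ⊥ ∧ g '' ball a I = ball (g a) J := by
  obtain ⟨r, s, hr, hs, A, h⟩ := hg
  let J : Ideal R :=
    { carrier := {j | ∃ i ∈ I, s * j = r * i}
      add_mem' := by
        rintro x y ⟨i, hi, h1⟩ ⟨j, hj, h2⟩
        exact ⟨i + j, I.add_mem hi hj, by rw [mul_add, mul_add, h1, h2]⟩
      zero_mem' := ⟨0, I.zero_mem, by rw [mul_zero, mul_zero]⟩
      smul_mem' := by
        rintro c x ⟨i, hi, h1⟩
        refine ⟨c * i, I.mul_mem_left _ hi, ?_⟩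
        rw [smul_eq_mul, mul_left_comm, h1, mul_left_comm] }
  have hJ : ∀ j, j ∈ J ↔ ∃ i ∈ I, s * j = r * i := fun j => Iff.rfl
  refine ⟨J, ?_, ?_⟩
  · obtain ⟨i, hi, hi0⟩ := Submodule.exists_mem_ne_zero_of_ne_bot hI
    obtain ⟨k⟩ := (inferInstance : Nonempty n)
    -- move in the direction of the first basis vector
    set v : n → R := Pi.single k i with hv
    have hvI : ∀ l, v l ∈ I := by
      intro l
      by_cases hl : l = k
      · subst hl; rw [hv, Pi.single_eq_same]; exact hi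
      · rw [hv, Pi.single_eq_of_ne hl]; exact I.zero_mem
    have hx : a + (A⁻¹ : GL n R).1 *ᵥ v ∈ ball a I := by
      intro l
      rw [Pi.add_apply, add_sub_cancel_left]
      exact mulVec_mem _ _ _ hvI l
    have h1 := h _ hx a (self_mem_ball a I)
    rw [add_sub_cancel_left, GL_inv_mulVec] at h1
    have h2 := congrFun h1 k
    rw [Pi.smul_apply, Pi.smul_apply, hv, Pi.single_eq_same, smul_eq_mul, smul_eq_mul] at h2
    intro hbot
    have h3 : (g (a + (A⁻¹ : GL n R).1 *ᵥ v) - g a) k ∈ J := ⟨i, hi, h2⟩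
    rw [hbot, Submodule.mem_bot] at h3
    rw [h3, mul_zero] at h2
    exact (mul_ne_zero hr hi0) h2.symm
  · ext y
    constructor
    · rintro ⟨x, hx, rfl⟩ l
      have h1 := congrFun (h x hx a (self_mem_ball a I)) l
      rw [Pi.smul_apply, Pi.smul_apply, smul_eq_mul, smul_eq_mul, Pi.sub_apply] at h1
      exact ⟨_, mulVec_mem A.1 (x - a) I (fun i => hx i) l, h1⟩
    · intro hy
      have hy' : ∀ l, ∃ i ∈ I, s * (y l - g a l) = r * i := fun l => hy l
      choose w hwI hw using hy'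
      refine ⟨a + (A⁻¹ : GL n R).1 *ᵥ w, ?_, ?_⟩
      · intro l
        rw [Pi.add_apply, add_sub_cancel_left]
        exact mulVec_mem _ _ _ hwI l
      · have hx : a + (A⁻¹ : GL n R).1 *ᵥ w ∈ ball a I := by
          intro l
          rw [Pi.add_apply, add_sub_cancel_left]
          exact mulVec_mem _ _ _ hwI l
        have h1 := h _ hx a (self_mem_ball a I)
        rw [add_sub_cancel_left, GL_inv_mulVec] at h1
        funext l
        have h2 := congrFun h1 l
        rw [Pi.smul_apply, Pi.smul_apply, smul_eq_mul, smul_eq_mul, Pi.sub_apply, ← hw l] at h2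
        exact sub_left_injective (mul_left_cancel₀ hs h2)

variable [IsDiscreteValuationRing R]

omit [IsDomain R] in
theorem fin_ideals [IsDomain R] [IsDiscreteValuationRing R] (I : Ideal R) (hI : I ≠ ⊥) :
    {J : Ideal R | I ≤ J}.Finite := by
  obtain ⟨ϖ, hϖ⟩ := IsDiscreteValuationRing.exists_irreducible R
  obtain ⟨m, hm⟩ := IsDiscreteValuationRing.ideal_eq_span_pow_irreducible hI hϖ
  refine ((finite_Iic m).image (fun k => Ideal.span {ϖ ^ k})).subset ?_
  intro J hJ
  have hJ0 : J ≠ ⊥ := fun h => hI (le_bot_iff.1 (h ▸ hJ))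
  obtain ⟨k, hk⟩ := IsDiscreteValuationRing.ideal_eq_span_pow_irreducible hJ0 hϖ
  by_cases hkm : k ≤ m
  · exact ⟨k, hkm, hk.symm⟩
  · refine ⟨m, mem_Iic.2 (le_refl m), ?_⟩
    change Ideal.span {ϖ ^ m} = J
    rw [← hm]
    refine le_antisymm hJ ?_
    rw [hk, hm, Ideal.span_singleton_le_span_singleton]
    exact pow_dvd_pow _ (by omega)

/-- the system of balls and similarities of `R^n` -/
def dvrSim (R : Type*) [CommRing R] [IsDomain R] [IsDiscreteValuationRing R] (n : Type*)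
    [Fintype n] [DecidableEq n] [Nonempty n] : Sim (n → R) where
  B := balls R n
  good := Simil
  ne := by
    rintro U ⟨a, I, -, rfl⟩
    exact ⟨a, self_mem_ball a I⟩
  nest := by
    rintro U ⟨a, I, -, rfl⟩ V ⟨b, J, -, rfl⟩
    by_cases hd : Disjoint (ball a I) (ball b J)
    · exact Or.inr (Or.inr hd)
    rw [not_disjoint_iff] at hd
    obtain ⟨x, hx, hy⟩ := hd
    rw [ball_eq hx, ball_eq hy]
    rcases (ValuationRing.le_total_ideal (A := R)).total I J with h | h
    · exact Or.inl (ball_mono x h)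
    · exact Or.inr (Or.inl (ball_mono x h))
  fin := by
    rintro U ⟨a, I, hI, rfl⟩
    refine ((fin_ideals I hI).image (fun J => ball a J)).subset ?_
    rintro V ⟨⟨b, J, -, rfl⟩, h⟩
    refine ⟨J, ?_, (ball_eq (h (self_mem_ball a I))).symm⟩
    intro i hi
    obtain ⟨k⟩ := (inferInstance : Nonempty n)
    have h1 : a + Pi.single k i ∈ ball a I := by
      intro l
      rw [Pi.add_apply, add_sub_cancel_left]
      by_cases hl : l = k
      · subst hl; rw [Pi.single_eq_same]; exact hi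
      · rw [Pi.single_eq_of_ne hl]; exact I.zero_mem
    have h2 := J.sub_mem (h h1 k) (h (self_mem_ball a I) k)
    rwa [sub_sub_sub_cancel_right, Pi.add_apply, add_sub_cancel_left, Pi.single_eq_same] at h2
  one := by
    rintro U -
    exact ⟨1, 1, one_ne_zero, one_ne_zero, 1, fun x _ y _ => by simp⟩
  img := by
    rintro g U ⟨a, I, hI, rfl⟩ hg
    obtain ⟨J, hJ, h⟩ := simil_image g a I hI hg
    exact ⟨g a, J, hJ, h⟩
  inv := by
    rintro g U - ⟨r, s, hr, hs, A, h⟩
    refine ⟨s, r, hs, hr, A⁻¹, ?_⟩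
    rintro _ ⟨x, hx, rfl⟩ _ ⟨y, hy, rfl⟩
    have hgi : ∀ z, g⁻¹ (g z) = z := fun z => by simp
    rw [hgi, hgi, ← Matrix.mulVec_smul, h x hx y hy, Matrix.mulVec_smul, GL_inv_mulVec']
  mul := by
    rintro g h U - ⟨r, s, hr, hs, A, h1⟩ ⟨r', s', hr', hs', A', h2⟩
    refine ⟨r' * r, s' * s, mul_ne_zero hr' hr, mul_ne_zero hs' hs, A' * A, ?_⟩
    intro x hx y hy
    have h3 := h2 (g x) (mem_image_of_mem g hx) (g y) (mem_image_of_mem g hy)
    rw [Equiv.Perm.mul_apply, Equiv.Perm.mul_apply, mul_comm s' s, mul_smul, h3, mul_smul,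
      smul_comm s r', ← Matrix.mulVec_smul, h1 x hx y hy, Matrix.mulVec_smul,
      Matrix.mulVec_mulVec, Units.val_mul]
  res := by
    rintro g U - V - hVU ⟨r, s, hr, hs, A, h⟩
    exact ⟨r, s, hr, hs, A, fun x hx y hy => h x (hVU hx) y (hVU hy)⟩

end domain

end Vale.Agent.P192.R2.H51L
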