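import Vale.Agent.P192.R2.H51L.Dvr
import Vale.Agent.P192.H903.Ring

/-!
# P192: piecewise similarities of free modules over discrete valuation rings: local groups
-/

namespace Vale.Agent.P192.R2.H51L

open Set Matrix

universe u

/-- commutative groups -/
theorem fpb_comm {G : Type u} [Group G] (h : ∀ x y : G, x * y = y * x) : FPB G := by
  apply fpb_of_fg
  intro K hK ht
  have hfg : Group.FG K := (Group.fg_iff_subgroup_fg _).2 hK
  let _ : CommGroup K := { (inferInstance : Group K) with
    mul_comm := fun a b => Subtype.ext (h a.1 b.1) }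
  apply CommGroup.finite_of_fg_isMulTorsion K
  intro x
  exact (Submonoid.isOfFinOrder_coe (H := K.toSubmonoid) (x := x)).1 (ht x.1 x.2)

variable {R : Type*} [CommRing R] [IsDomain R] {n : Type*} [Fintype n] [DecidableEq n] [Nonempty n]

/-- coordinates in the fraction field -/
def co (R : Type*) [CommRing R] [IsDomain R] {n : Type*} (v : n → R) : n → FractionRing R :=
  fun i => algebraMap R (FractionRing R) (v i)

theorem co_inj {v w : n → R} (h : co R v = co R w) : v = w := by
  funext i
  exact IsFractionRing.injective R (FractionRing R) (congrFun h i)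

theorem co_sub (v w : n → R) : co R (v - w) = co R v - co R w := by
  funext i; exact map_sub _ _ _

theorem co_smul (c : R) (v : n → R) :
    co R (c • v) = (algebraMap R (FractionRing R) c) • co R v := by
  funext i; exact map_mul _ _ _

theorem co_mulVec (A : Matrix n n R) (v : n → R) :
    co R (A *ᵥ v) = (A.map (algebraMap R (FractionRing R))) *ᵥ co R v := by
  funext i
  exact RingHom.map_mulVec (algebraMap R (FractionRing R)) A v i

/-- the linear part of a similarity -/
def Lin (U : Set (n → R)) (σ : Equiv.Perm U) (M : Matrix n n (FractionRing R)) : Prop :=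
  ∀ x y : U, co R ((σ x : n → R) - (σ y : n → R)) = M *ᵥ co R ((x : n → R) - y)

theorem lin_unique (a : n → R) (I : Ideal R) (hI : I ≠ ⊥) (σ : Equiv.Perm (ball a I))
    (M M' : Matrix n n (FractionRing R)) (h : Lin (ball a I) σ M) (h' : Lin (ball a I) σ M') :
    M = M' := by
  obtain ⟨i, hi, hi0⟩ := Submodule.exists_mem_ne_zero_of_ne_bot hI
  ext k l
  have hx : a + Pi.single l i ∈ ball a I := by
    intro m
    rw [Pi.add_apply, add_sub_cancel_left]
    by_cases hm : m = l
    · subst hm; rw [Pi.single_eq_same]; exact hi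
    · rw [Pi.single_eq_of_ne hm]; exact I.zero_mem
  have h4 : co R ((a + Pi.single l i) - a) = Pi.single l (algebraMap R (FractionRing R) i) := by
    funext m
    rw [co, add_sub_cancel_left]
    by_cases hm : m = l
    · subst hm; rw [Pi.single_eq_same, Pi.single_eq_same]
    · rw [Pi.single_eq_of_ne hm, Pi.single_eq_of_ne hm, map_zero]
  have h3 : M *ᵥ co R ((a + Pi.single l i) - a) = M' *ᵥ co R ((a + Pi.single l i) - a) :=
    (h ⟨_, hx⟩ ⟨a, self_mem_ball a I⟩).symm.trans (h' ⟨_, hx⟩ ⟨a, self_mem_ball a I⟩)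
  rw [h4, Matrix.mulVec_single, Matrix.mulVec_single] at h3
  have h5 := congrFun h3 k
  have hne : algebraMap R (FractionRing R) i ≠ 0 := by
    intro h0
    exact hi0 (IsFractionRing.injective R (FractionRing R) (by rw [h0, map_zero]))
  exact mul_right_cancel₀ hne (by simpa using h5)

/-- the local group -/
def locGroup (U : Set (n → R)) : Subgroup (Equiv.Perm U) where
  carrier := {σ | ∃ M : GL n (FractionRing R), Lin U σ M.1}
  one_mem' := ⟨1, fun x y => by simp⟩
  mul_mem' := by
    rintro σ τ ⟨M, hM⟩ ⟨N, hN⟩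
    refine ⟨M * N, fun x y => ?_⟩
    rw [Equiv.Perm.mul_apply, Equiv.Perm.mul_apply, hM, hN, Matrix.mulVec_mulVec, Units.val_mul]
  inv_mem' := by
    rintro σ ⟨M, hM⟩
    refine ⟨M⁻¹, fun x y => ?_⟩
    have h := hM (σ⁻¹ x) (σ⁻¹ y)
    have hs : ∀ z, σ (σ⁻¹ z) = z := fun z => by simp
    rw [hs, hs] at h
    rw [h, GL_inv_mulVec']

theorem fpb_locGroup {U : Set (n → R)} (hU : U ∈ balls R n) : FPB (locGroup U) := by
  obtain ⟨a, I, hI, rfl⟩ := hU
  choose M hM using fun σ : locGroup (ball a I) => σ.2
  let φ : locGroup (ball a I) →* GL n (FractionRing R) := MonoidHom.mk' M (by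
    intro σ τ
    apply Units.ext
    refine lin_unique a I hI (σ * τ : locGroup (ball a I)).1 _ _ (hM _) ?_
    intro x y
    change co R ((σ.1 (τ.1 x) : n → R) - (σ.1 (τ.1 y) : n → R)) = _
    rw [hM σ, hM τ, Matrix.mulVec_mulVec, Units.val_mul])
  refine fpb_ext φ (H903.fpb_GL _) (fpb_comm ?_)
  have hker : ∀ σ : φ.ker, ∀ x y : ball a I,
      ((σ.1.1 x : n → R) - (σ.1.1 y : n → R)) = (x : n → R) - y := by
    intro σ x y
    apply co_inj
    have h1 : M σ.1 = 1 := σ.2
    rw [hM σ.1 x y, h1, Units.val_one, Matrix.one_mulVec]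
  intro σ τ
  apply Subtype.ext
  apply Subtype.ext
  apply Equiv.ext
  intro x
  apply Subtype.ext
  change (σ.1.1 (τ.1.1 x) : n → R) = (τ.1.1 (σ.1.1 x) : n → R)
  have h1 := hker σ (τ.1.1 x) x
  have h2 := hker τ (σ.1.1 x) x
  rw [sub_eq_iff_eq_add] at h1 h2
  rw [h1, h2]
  abel

/-- **piecewise similarities over discrete valuation rings** -/
theorem fpb_dvr (R : Type*) [CommRing R] [IsDomain R] [IsDiscreteValuationRing R] (n : Type*)
    [Fintype n] [DecidableEq n] [Nonempty n] (G : Subgroup (Equiv.Perm (n → R)))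
    (hG : ∀ g ∈ G, Cov (dvrSim R n) g) : FPB G := by
  refine fpb_sim (dvrSim R n) G hG ?_
  intro U hU
  refine ⟨locGroup U, fpb_locGroup hU, ?_⟩
  rintro g - ⟨r, s, hr, hs, A, h⟩ hgU
  have hmem : ∀ x, x ∈ U ↔ g x ∈ U := by
    intro x
    constructor
    · intro hx
      rw [← hgU]
      exact mem_image_of_mem g hx
    · intro hx
      rw [← hgU] at hx
      obtain ⟨y, hy, hxy⟩ := hx
      rwa [← g.injective hxy]
  refine ⟨g.subtypePerm (fun x => (hmem x).symm), ?_, fun x => rfl⟩
  have hs' : algebraMap R (FractionRing R) s ≠ 0 := fun h0 =>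
    hs (IsFractionRing.injective R (FractionRing R) (by rw [h0, map_zero]))
  have hr' : algebraMap R (FractionRing R) r ≠ 0 := fun h0 =>
    hr (IsFractionRing.injective R (FractionRing R) (by rw [h0, map_zero]))
  let c : (FractionRing R)ˣ := Units.mk0 (algebraMap R (FractionRing R) r /
    algebraMap R (FractionRing R) s) (div_ne_zero hr' hs')
  let A' : GL n (FractionRing R) :=
    Units.map ((algebraMap R (FractionRing R)).mapMatrix (m := n)).toMonoidHom A
  let C : GL n (FractionRing R) :=
    Units.map (algebraMap (FractionRing R) (Matrix n n (FractionRing R))).toMonoidHom c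
  refine ⟨C * A', fun x y => ?_⟩
  have h1 := congrArg (co R) (h x x.2 y y.2)
  rw [co_smul, co_smul, co_mulVec] at h1
  have h2 : (C * A' : GL n (FractionRing R)).1 = c.1 • A.1.map (algebraMap R (FractionRing R)) := by
    rw [Units.val_mul]
    change algebraMap (FractionRing R) (Matrix n n (FractionRing R)) c.1 *
      A.1.map (algebraMap R (FractionRing R)) = _
    rw [Algebra.algebraMap_eq_smul_one, smul_mul_assoc, one_mul]
  rw [h2, Matrix.smul_mulVec]
  change co R (g x - g y) = _
  rw [← smul_right_injective _ hs' |>.eq_iff, smul_smul] 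
  change algebraMap R (FractionRing R) s • co R (g x - g y) = _
  rw [h1]
  congr 1
  change _ = algebraMap R (FractionRing R) s * (algebraMap R (FractionRing R) r /
    algebraMap R (FractionRing R) s)
  field_simp

end Vale.Agent.P192.R2.H51L
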