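import Vale.Agent.P192.R2.H51L.Bur
import Vale.Agent.P192.R2.H51L.DvrFpb

/-!
# P192: groups of piecewise similarities: explicit statements
-/

namespace Vale.Agent.P192.R2.H51L

open Set Matrix

/-- explicit form of `fpb_sim` and `bur_sim` -/
theorem sim_explicit (Ω : Type) (B : Set (Set Ω)) (good : Equiv.Perm Ω → Set Ω → Prop)
    (hB : ∀ U ∈ B, U.Nonempty ∧ good 1 U ∧ {V | V ∈ B ∧ U ⊆ V}.Finite ∧
      (∀ V ∈ B, U ⊆ V ∨ V ⊆ U ∨ Disjoint U V) ∧ ∀ g, good g U →
        g '' U ∈ B ∧ good g⁻¹ (g '' U) ∧ (∀ V ∈ B, V ⊆ U → good g V) ∧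
          ∀ h, good h (g '' U) → good (h * g) U)
    (G : Subgroup (Equiv.Perm Ω))
    (hG : ∀ g ∈ G, ∃ C : Set (Set Ω), C.Finite ∧ C ⊆ B ∧ ⋃₀ C = univ ∧ ∀ U ∈ C, good g U) :
    ((∀ U ∈ B, ∃ L : Subgroup (Equiv.Perm U), FPB L ∧ ∀ g ∈ G, good g U → g '' U = U →
      ∃ σ ∈ L, ∀ x : U, (σ x : Ω) = g x) → FPB G) ∧
    ((∀ U ∈ B, ∃ L : Subgroup (Equiv.Perm U), Bur L ∧ ∀ g ∈ G, good g U → g '' U = U →
      ∃ σ ∈ L, ∀ x : U, (σ x : Ω) = g x) → Bur G) := by
  let S : Sim Ω :=
    { B := B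
      good := good
      ne := fun U hU => (hB U hU).1
      nest := fun U hU => (hB U hU).2.2.2.1
      fin := fun U hU => (hB U hU).2.2.1
      one := fun U hU => (hB U hU).2.1
      img := fun g U hU hg => ((hB U hU).2.2.2.2 g hg).1
      inv := fun g U hU hg => ((hB U hU).2.2.2.2 g hg).2.1
      mul := fun g h U hU hg hh => ((hB U hU).2.2.2.2 g hg).2.2.2 h hh
      res := fun g U hU V hV hVU hg => ((hB U hU).2.2.2.2 g hg).2.2.1 V hV hVU }
  exact ⟨fpb_sim S G hG, bur_sim S G hG⟩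

theorem bur_GL (n : Type*) [Fintype n] [DecidableEq n] (A : Type*) [CommRing A] :
    Bur (GL n A) := by
  intro Γ _ hΓ ht f
  have := hΓ
  exact H903.finite_of_fg_periodic ht f

variable {R : Type*} [CommRing R] [IsDomain R] {n : Type*} [Fintype n] [DecidableEq n] [Nonempty n]

theorem bur_locGroup {U : Set (n → R)} (hU : U ∈ balls R n) : Bur (locGroup U) := by
  obtain ⟨a, I, hI, rfl⟩ := hU
  choose M hM using fun σ : locGroup (ball a I) => σ.2
  let φ : locGroup (ball a I) →* GL n (FractionRing R) := MonoidHom.mk' M (by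
    intro σ τ
    apply Units.ext
    refine lin_unique a I hI (σ * τ : locGroup (ball a I)).1 _ _ (hM _) ?_
    intro x y
    change co R ((σ.1 (τ.1 x) : n → R) - (σ.1 (τ.1 y) : n → R)) = _
    rw [hM σ, hM τ, Matrix.mulVec_mulVec, Units.val_mul])
  refine bur_ext φ (bur_GL _ _) (bur_comm ?_)
  have hker : ∀ σ : φ.ker, ∀ x y : ball a I,
      ((σ.1.1 x : n → R) - (σ.1.1 y : n → R)) = (x : n → R) - y := by
    intro σ x y
    apply co_inj
    have h1 : M σ.1 = 1 := σ.2
    rw [hM σ.1 x y, h1, Units.val_one, Matrix.one_mulVec]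
  intro σ τ
  apply Subtype.ext
  apply Subtype.ext
  apply Equiv.ext
  intro x
  apply Subtype.ext
  change (σ.1.1 (τ.1.1 x) : n → R) = (τ.1.1 (σ.1.1 x) : n → R)
  have h1 := hker σ (τ.1.1 x) x
  have h2 := hker τ (σ.1.1 x) x
  rw [sub_eq_iff_eq_add] at h1 h2
  rw [h1, h2]
  abel

/-- restriction of a similarity to an invariant ball -/
theorem exists_loc {U : Set (n → R)} (g : Equiv.Perm (n → R)) (hg : Simil g U)
    (hgU : g '' U = U) : ∃ σ ∈ locGroup U, ∀ x : U, (σ x : n → R) = g x := by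
  obtain ⟨r, s, hr, hs, A, h⟩ := hg
  have hmem : ∀ x, x ∈ U ↔ g x ∈ U := by
    intro x
    constructor
    · intro hx
      rw [← hgU]
      exact mem_image_of_mem g hx
    · intro hx
      rw [← hgU] at hx
      obtain ⟨y, hy, hxy⟩ := hx
      rwa [← g.injective hxy]
  refine ⟨g.subtypePerm (fun x => (hmem x).symm), ?_, fun x => rfl⟩
  have hs' : algebraMap R (FractionRing R) s ≠ 0 := fun h0 =>
    hs (IsFractionRing.injective R (FractionRing R) (by rw [h0, map_zero]))
  have hr' : algebraMap R (FractionRing R) r ≠ 0 := fun h0 =>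
    hr (IsFractionRing.injective R (FractionRing R) (by rw [h0, map_zero]))
  let c : (FractionRing R)ˣ := Units.mk0 (algebraMap R (FractionRing R) r /
    algebraMap R (FractionRing R) s) (div_ne_zero hr' hs')
  let A' : GL n (FractionRing R) :=
    Units.map ((algebraMap R (FractionRing R)).mapMatrix (m := n)).toMonoidHom A
  let C : GL n (FractionRing R) :=
    Units.map (algebraMap (FractionRing R) (Matrix n n (FractionRing R))).toMonoidHom c
  refine ⟨C * A', fun x y => ?_⟩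
  have h1 := congrArg (co R) (h x x.2 y y.2)
  rw [co_smul, co_smul, co_mulVec] at h1
  have h2 : (C * A' : GL n (FractionRing R)).1 =
      c.1 • A.1.map (algebraMap R (FractionRing R)) := by
    rw [Units.val_mul]
    change algebraMap (FractionRing R) (Matrix n n (FractionRing R)) c.1 *
      A.1.map (algebraMap R (FractionRing R)) = _
    rw [Algebra.algebraMap_eq_smul_one, smul_mul_assoc, one_mul]
  rw [h2, Matrix.smul_mulVec]
  change co R (g x - g y) = _
  rw [← smul_right_injective _ hs' |>.eq_iff, smul_smul]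
  change algebraMap R (FractionRing R) s • co R (g x - g y) = _
  rw [h1]
  congr 1
  change _ = algebraMap R (FractionRing R) s * (algebraMap R (FractionRing R) r /
    algebraMap R (FractionRing R) s)
  field_simp

/-- **Burnside theorem for piecewise similarities over discrete valuation rings** -/
theorem dvr_explicit (R : Type) [CommRing R] [IsDomain R] [IsDiscreteValuationRing R]
    (n : Type) [Fintype n] [DecidableEq n] [Nonempty n] (G : Subgroup (Equiv.Perm (n → R)))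
    (hG : ∀ g ∈ G, ∃ C : Set ((n → R) × Ideal R), C.Finite ∧
      (∀ x : n → R, ∃ p ∈ C, ∀ i, x i - p.1 i ∈ p.2) ∧
      ∀ p ∈ C, p.2 ≠ ⊥ ∧ ∃ r s : R, r ≠ 0 ∧ s ≠ 0 ∧ ∃ A : GL n R, ∀ x y : n → R,
        (∀ i, x i - p.1 i ∈ p.2) → (∀ i, y i - p.1 i ∈ p.2) →
          s • (g x - g y) = r • (A.1 *ᵥ (x - y))) : Bur G := by
  refine bur_sim (dvrSim R n) G ?_ ?_
  · intro g hg
    obtain ⟨C, hCf, hCu, hC⟩ := hG g hg
    refine ⟨(fun p : (n → R) × Ideal R => ball p.1 p.2) '' C, hCf.image _, ?_, ?_, ?_⟩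
    · rintro _ ⟨p, hp, rfl⟩
      exact ⟨p.1, p.2, (hC p hp).1, rfl⟩
    · rw [eq_univ_iff_forall]
      intro x
      obtain ⟨p, hp, hx⟩ := hCu x
      exact ⟨_, ⟨p, hp, rfl⟩, hx⟩
    · rintro _ ⟨p, hp, rfl⟩
      obtain ⟨-, r, s, hr, hs, A, h⟩ := hC p hp
      exact ⟨r, s, hr, hs, A, fun x hx y hy => h x y hx hy⟩
  · intro U hU
    exact ⟨locGroup U, bur_locGroup hU, fun g _ hg hgU => exists_loc g hg hgU⟩

end Vale.Agent.P192.R2.H51L
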