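import Vale.Agent.P192.R2.H51L.Core

/-!
# P192: groups of piecewise similarities: the class `FPB`
-/

namespace Vale.Agent.P192.R2.H51L

open Set

universe u v

/-- it suffices to treat finitely generated periodic subgroups -/
theorem fpb_of_fgp {G : Type u} [Group G]
    (h : ∀ K : Subgroup G, K.FG → (∀ x ∈ K, IsOfFinOrder x) → FPB K) : FPB G := by
  intro Γ _ hΓ ht f
  obtain ⟨n, φ, hφ, -⟩ := id hΓ
  have hfg : Group.FG Γ := Group.fg_of_surjective hφ
  have hr : Group.FG f.range := Group.fg_range f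
  have hp : ∀ x ∈ f.range, IsOfFinOrder x := by
    rintro _ ⟨x, rfl⟩
    exact MonoidHom.isOfFinOrder f (ht x)
  have h1 := h f.range ((Group.fg_iff_subgroup_fg _).1 hr) hp Γ hΓ ht f.rangeRestrict
  have h2 : f.rangeRestrict.range = ⊤ := MonoidHom.range_eq_top.2 f.rangeRestrict_surjective
  rw [h2] at h1
  exact Finite.of_equiv _ Subgroup.topEquiv.toEquiv

variable {Ω : Type u} (S : Sim Ω)

/-- the action on the parts -/
def actParts (K : Subgroup (Equiv.Perm Ω)) : K →* Equiv.Perm (Parts S K) :=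
  MonoidHom.toHomPerm
    { toFun := fun k U => ⟨(k : Equiv.Perm Ω) '' U.1, parts_image S K k.2 U.2⟩
      map_one' := by
        funext U
        apply Subtype.ext
        exact image_one' U.1
      map_mul' := by
        intro g h
        funext U
        apply Subtype.ext
        exact image_mul' (g : Equiv.Perm Ω) h U.1 }

theorem actParts_apply (K : Subgroup (Equiv.Perm Ω)) (k : K) (U : Parts S K) :
    ((actParts S K k) U : Set Ω) = (k : Equiv.Perm Ω) '' U.1 := rfl

theorem ker_image (K : Subgroup (Equiv.Perm Ω)) (k : K) (hk : k ∈ (actParts S K).ker)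
    (U : Parts S K) : (k : Equiv.Perm Ω) '' U.1 = U.1 := by
  rw [← actParts_apply, MonoidHom.mem_ker.1 hk]
  rfl

theorem exists_res (K : Subgroup (Equiv.Perm Ω)) (U : Parts S K)
    (L : Subgroup (Equiv.Perm U.1))
    (hL : ∀ g ∈ K, S.good g U.1 → g '' U.1 = U.1 → ∃ σ ∈ L, ∀ x : U.1, (σ x : Ω) = g x)
    (k : (actParts S K).ker) :
    ∃ σ : L, ∀ x : U.1, ((σ : Equiv.Perm U.1) x : Ω) = (k.1.1 : Equiv.Perm Ω) x := by
  obtain ⟨σ, hσ, h⟩ := hL k.1.1 k.1.2 (U.2.1.2 _ k.1.2) (ker_image S K k.1 k.2 U)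
  exact ⟨⟨σ, hσ⟩, h⟩

/-- restriction to a part -/
theorem exists_resHom (K : Subgroup (Equiv.Perm Ω)) (U : Parts S K)
    (L : Subgroup (Equiv.Perm U.1))
    (hL : ∀ g ∈ K, S.good g U.1 → g '' U.1 = U.1 → ∃ σ ∈ L, ∀ x : U.1, (σ x : Ω) = g x) :
    ∃ r : (actParts S K).ker →* L, ∀ k (x : U.1),
      ((r k : Equiv.Perm U.1) x : Ω) = (k.1.1 : Equiv.Perm Ω) x := by
  choose r hr using exists_res S K U L hL
  refine ⟨MonoidHom.mk' r ?_, hr⟩
  intro a b
  apply Subtype.ext
  apply Equiv.ext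
  intro x
  apply Subtype.ext
  change ((r (a * b) : Equiv.Perm U.1) x : Ω) =
    ((r a : Equiv.Perm U.1) ((r b : Equiv.Perm U.1) x) : Ω)
  rw [hr, hr, hr]
  rfl

/-- **groups of piecewise similarities** -/
theorem fpb_sim (G : Subgroup (Equiv.Perm Ω)) (hc : ∀ g ∈ G, Cov S g)
    (hloc : ∀ U ∈ S.B, ∃ L : Subgroup (Equiv.Perm U), FPB L ∧
      ∀ g ∈ G, S.good g U → g '' U = U → ∃ σ ∈ L, ∀ x : U, (σ x : Ω) = g x) : FPB G := by
  apply fpb_of_fgp
  intro K' hK' ht'
  -- as permutations of the set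
  let K : Subgroup (Equiv.Perm Ω) := K'.map G.subtype
  have hKG : K ≤ G := by
    rintro _ ⟨x, -, rfl⟩
    exact x.2
  suffices hK : FPB K by
    refine fpb_of_injective (f := ((Subgroup.equivMapOfInjective K' G.subtype
      G.subtype_injective).toMonoidHom : K' →* K)) (MulEquiv.injective _) hK
  have hKfg : K.FG := by
    have h1 : Group.FG K' := (Group.fg_iff_subgroup_fg _).2 hK'
    let e : K' →* K := (Subgroup.equivMapOfInjective K' G.subtype G.subtype_injective).toMonoidHom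
    have he : Function.Surjective e := MulEquiv.surjective _
    exact (Group.fg_iff_subgroup_fg _).1 (Group.fg_of_surjective he)
  have hKt : ∀ k ∈ K, IsOfFinOrder k := by
    rintro _ ⟨x, hx, rfl⟩
    exact MonoidHom.isOfFinOrder G.subtype (ht' x hx)
  obtain ⟨hPf, hPu⟩ := parts_finite_cover S K hKfg hKt (fun k hk => hc k (hKG hk))
  have hfin : Finite (Parts S K) := hPf
  refine fpb_ext (actParts S K) (fpb_of_finite _) ?_
  choose L hLF hL using hloc
  have hL' : ∀ U : Parts S K, ∀ g ∈ K, S.good g U.1 → g '' U.1 = U.1 →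
      ∃ σ ∈ L U.1 U.2.1.1, ∀ x : U.1, (σ x : Ω) = g x :=
    fun U g hg => hL U.1 U.2.1.1 g (hKG hg)
  choose r hr using fun U : Parts S K => exists_resHom S K U _ (hL' U)
  let F : (actParts S K).ker →* (∀ U : Parts S K, L U.1 U.2.1.1) :=
    MonoidHom.mk' (fun k U => r U k) (by
      intro a b
      funext U
      exact map_mul _ a b)
  refine fpb_of_injective F ?_ (fpb_pi (fun U => hLF U.1 U.2.1.1))
  intro a b hab
  apply Subtype.ext
  apply Subtype.ext
  apply Equiv.ext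
  intro x
  have hxu : x ∈ ⋃₀ Parts S K := by rw [hPu]; exact mem_univ _
  obtain ⟨U, hU, hxU⟩ := hxu
  have h1 : r ⟨U, hU⟩ a = r ⟨U, hU⟩ b := congrFun hab ⟨U, hU⟩
  have h2 := hr ⟨U, hU⟩ a ⟨x, hxU⟩
  have h3 := hr ⟨U, hU⟩ b ⟨x, hxU⟩
  rw [h1] at h2
  exact h2.symm.trans h3

end Vale.Agent.P192.R2.H51L
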