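import Vale.Agent.P192.R2.H360.Prune
import Vale.Agent.P192.H663.Calc

set_option linter.all false

/-! Cocycles over strongly irreducible subshifts, from the pruning theorem. -/

namespace Vale.Agent.P192.R2.H51L

open Vale.Agent.P192 Vale.Agent.P192.R2.H360

/-- literal (P4) -/
def PruneStmt : Prop := ∀ (G : Type) [Group G] [Group.IsFinitelyPresented G], IsMulTorsion G →
  ∀ (S : Set G), Subgroup.closure S = ⊤ → ∀ m : ℕ,
    ∃ N : Subgroup G, N.Normal ∧ N.FiniteIndex ∧
      ∀ (Y A : Type) (Ω Ω₀ : Set (Y → A)) (act : (Y → A) → (G →* Equiv.Perm Y))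
      (Rd : Y → Finset Y), Prune S m Ω Ω₀ act Rd → ∀ ω ∈ Ω, ∀ g ∈ N, act ω g = 1

section comm

variable {H : Type} [Group H]

/-- permutations commuting with right multiplication by `T` -/
def rightComm (T : Subgroup H) : Subgroup (Equiv.Perm H) where
  carrier := {π | ∀ h, ∀ t ∈ T, π (h * t) = π h * t}
  one_mem' := fun h t _ => rfl
  mul_mem' := by
    intro a b ha hb h t ht
    rw [Equiv.Perm.mul_apply, Equiv.Perm.mul_apply, hb h t ht, ha _ t ht]
  inv_mem' := by
    intro a ha h t ht
    have e : ∀ x, a (a⁻¹ x) = x := fun x => a.apply_symm_apply x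
    apply a.injective
    rw [e, ha _ t ht, e]

/-- action on the cosets -/
def qEnd (T : Subgroup H) : rightComm T →* Function.End (H ⧸ T) where
  toFun π := Quotient.map' (s₁ := QuotientGroup.leftRel T) (s₂ := QuotientGroup.leftRel T)
    (fun h => π.1 h) (by
      intro x y hxy
      rw [QuotientGroup.leftRel_apply] at hxy ⊢
      have h1 : π.1 y = π.1 x * (x⁻¹ * y) := by
        rw [← π.2 x _ hxy, mul_inv_cancel_left]
      rw [h1, inv_mul_cancel_left]
      exact hxy)
  map_one' := by
    funext x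
    induction x using Quotient.inductionOn'
    rfl
  map_mul' := by
    intro a b
    funext x
    induction x using Quotient.inductionOn'
    rfl

theorem qEnd_mk (T : Subgroup H) (π : rightComm T) (h : H) :
    qEnd T π (QuotientGroup.mk h) = QuotientGroup.mk (π.1 h) := rfl

theorem fpb_rightComm (T : Subgroup H) [T.FiniteIndex] (hH : FPB H) : FPB (rightComm T) := by
  have hfin : Finite (H ⧸ T) := Subgroup.finite_quotient_of_finiteIndex
  let q : rightComm T →* Equiv.Perm (H ⧸ T) := MonoidHom.toHomPerm (qEnd T)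
  have hq : ∀ (π : rightComm T) (h : H), q π (QuotientGroup.mk h) = QuotientGroup.mk (π.1 h) :=
    fun π h => rfl
  refine fpb_ext q (fpb_of_finite _) ?_
  have hker : ∀ (π : q.ker) (x : H ⧸ T),
      (Quotient.out x)⁻¹ * π.1.1 (Quotient.out x) ∈ T := by
    intro π x
    have h1 : q π.1 (QuotientGroup.mk (Quotient.out x)) = QuotientGroup.mk (Quotient.out x) := by
      have h2 : q π.1 = 1 := π.2
      rw [h2]
      rfl
    rw [hq] at h1
    exact QuotientGroup.eq.1 h1.symm
  let φ : q.ker →* (H ⧸ T → H) := {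
    toFun := fun π x => (Quotient.out x)⁻¹ * π.1.1 (Quotient.out x)
    map_one' := by
      funext x
      show (Quotient.out x)⁻¹ * Quotient.out x = 1
      exact inv_mul_cancel _
    map_mul' := by
      intro a b
      funext x
      have h1 := hker b x
      have h2 : b.1.1 (Quotient.out x) =
          Quotient.out x * ((Quotient.out x)⁻¹ * b.1.1 (Quotient.out x)) := by
        rw [mul_inv_cancel_left]
      show (Quotient.out x)⁻¹ * a.1.1 (b.1.1 (Quotient.out x)) = _
      rw [h2, a.1.2 _ _ h1, ← mul_assoc]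
      rfl }
  have hφ : Function.Injective φ := by
    intro a b hab
    apply Subtype.ext
    apply Subtype.ext
    ext h
    have h1 := congrFun hab (QuotientGroup.mk h)
    have h2 : a.1.1 (Quotient.out (QuotientGroup.mk h : H ⧸ T)) =
        b.1.1 (Quotient.out (QuotientGroup.mk h : H ⧸ T)) := mul_left_cancel h1
    obtain ⟨t, ht⟩ := QuotientGroup.mk_out_eq_mul T h
    have h3 : h = Quotient.out (QuotientGroup.mk h : H ⧸ T) * (t : H)⁻¹ := by
      have : (Quotient.out (QuotientGroup.mk h : H ⧸ T)) = h * t := ht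
      rw [this, mul_inv_cancel_right]
    rw [h3, a.1.2 _ _ (T.inv_mem t.2), b.1.2 _ _ (T.inv_mem t.2), h2]
  exact fpb_of_injective φ hφ (fpb_pi fun _ => hH)

end comm

section main

variable {H A : Type} [Group H]

/-- stabilizer of a configuration -/
def stab (o : H → A) : Subgroup H where
  carrier := {t | ∀ k, o (k * t) = o k}
  one_mem' := fun k => by rw [mul_one]
  mul_mem' := by
    intro a b ha hb k
    rw [← mul_assoc, hb, ha]
  inv_mem' := by
    intro a ha k
    have := ha (k * a⁻¹)
    rw [inv_mul_cancel_right] at this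
    exact this.symm

theorem stab_finiteIndex (o : H → A) (ho : {σ : H → A | ∃ h, σ = fun k => o (k * h)}.Finite) :
    (stab o).FiniteIndex := by
  have hf : Finite {σ : H → A | ∃ h, σ = fun k => o (k * h)} := ho
  let F : H ⧸ stab o → {σ : H → A | ∃ h, σ = fun k => o (k * h)} := fun x =>
    ⟨fun k => o (k * Quotient.out x), Quotient.out x, rfl⟩
  have hF : Function.Injective F := by
    intro x y hxy
    have h1 : (fun k => o (k * Quotient.out x)) = fun k => o (k * Quotient.out y) :=
      congrArg Subtype.val hxy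
    have h2 : (Quotient.out x)⁻¹ * Quotient.out y ∈ stab o := by
      intro k
      have := congrFun h1 (k * (Quotient.out x)⁻¹)
      simp only [inv_mul_cancel_right] at this
      rw [this, mul_assoc]
    have h3 : (QuotientGroup.mk (Quotient.out x) : H ⧸ stab o) =
      QuotientGroup.mk (Quotient.out y) := QuotientGroup.eq.2 h2
    have h4 : (QuotientGroup.mk (Quotient.out x) : H ⧸ stab o) = x := Quotient.out_eq _
    have h5 : (QuotientGroup.mk (Quotient.out y) : H ⧸ stab o) = y := Quotient.out_eq _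
    rw [h4, h5] at h3
    exact h3
  have : Finite (H ⧸ stab o) := Finite.of_injective F hF
  exact Subgroup.finiteIndex_of_finite_quotient

variable {G : Type} [Group G]

/-- the action on `H` given by a configuration and a cocycle -/
def actX (X : Set (H → A)) (hX : ∀ ω ∈ X, ∀ h : H, (fun k => ω (k * h)) ∈ X)
    (c : G → (H → A) → H) (h1 : ∀ ω ∈ X, c 1 ω = 1)
    (hc : ∀ g g', ∀ ω ∈ X, c (g * g') ω = c g (fun k => ω (k * c g' ω)) * c g' ω)
    (ω : H → A) (hω : ω ∈ X) : G →* Equiv.Perm H :=
  MonoidHom.toHomPerm {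
    toFun := fun g h => c g (fun k => ω (k * h)) * h
    map_one' := by
      funext h
      show c 1 (fun k => ω (k * h)) * h = h
      rw [h1 _ (hX ω hω h), one_mul]
    map_mul' := by
      intro g g'
      funext h
      show c (g * g') (fun k => ω (k * h)) * h =
        c g (fun k => ω (k * (c g' (fun k => ω (k * h)) * h))) * (c g' (fun k => ω (k * h)) * h)
      rw [hc g g' _ (hX ω hω h), ← mul_assoc]
      congr 3
      funext k
      rw [mul_assoc] }

theorem actX_apply (X : Set (H → A)) (hX : ∀ ω ∈ X, ∀ h : H, (fun k => ω (k * h)) ∈ X)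
    (c : G → (H → A) → H) (h1 : ∀ ω ∈ X, c 1 ω = 1)
    (hc : ∀ g g', ∀ ω ∈ X, c (g * g') ω = c g (fun k => ω (k * c g' ω)) * c g' ω)
    (ω : H → A) (hω : ω ∈ X) (g : G) (h : H) :
    actX X hX c h1 hc ω hω g h = c g (fun k => ω (k * h)) * h := rfl

theorem irr_cocycle (HP : PruneStmt) (hH : FPB H) [hfp : Group.IsFinitelyPresented G]
    (hG : IsMulTorsion G) (X : Set (H → A)) (hX : ∀ ω ∈ X, ∀ h : H, (fun k => ω (k * h)) ∈ X)
    (c : G → (H → A) → H) (h1 : ∀ ω ∈ X, c 1 ω = 1)
    (hc : ∀ g g', ∀ ω ∈ X, c (g * g') ω = c g (fun k => ω (k * c g' ω)) * c g' ω)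
    (hloc : ∀ g, ∃ W : Finset H, ∀ ω ∈ X, ∀ ω' ∈ X, (∀ k ∈ W, ω k = ω' k) → c g ω = c g ω')
    (hfin : ∀ g, {h | ∃ ω ∈ X, c g ω = h}.Finite)
    (o : H → A) (ho : o ∈ X) (hof : {σ : H → A | ∃ h, σ = fun k => o (k * h)}.Finite)
    (B : Finset H) (hirr : ∀ ω ∈ X, ∀ K : Finset H, ∃ ω' ∈ X, (∀ k ∈ K, ω' k = ω k) ∧
      ∀ k, (∀ b ∈ B, b * k ∉ K) → ω' k = o k) :
    ∃ N : Subgroup G, N.Normal ∧ N.FiniteIndex ∧ ∀ g ∈ N, ∀ ω ∈ X, c g ω = 1 := by
  classical
  obtain ⟨S, hS, hSf⟩ : ∃ S : Set G, Subgroup.closure S = ⊤ ∧ S.Finite := by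
    obtain ⟨n, φ, hφ, -⟩ := hfp
    exact Group.fg_iff.1 (Group.fg_of_surjective hφ)
  have hS'f : (S ∪ S⁻¹).Finite := hSf.union hSf.inv
  have hmem : ∀ s : G, (s ∈ S ∨ s⁻¹ ∈ S) → s ∈ hS'f.toFinset := by
    intro s hs
    rw [Set.Finite.mem_toFinset]
    exact hs
  choose W hW using hloc
  set W0 : Finset H := insert 1 (hS'f.toFinset.biUnion W) with hW0
  let act : (H → A) → (G →* Equiv.Perm H) := fun ω =>
    if hω : ω ∈ X then actX X hX c h1 hc ω hω else 1
  have hact : ∀ ω ∈ X, ∀ g h, act ω g h = c g (fun k => ω (k * h)) * h := by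
    intro ω hω g h
    have : act ω = actX X hX c h1 hc ω hω := dif_pos hω
    rw [this]
    rfl
  -- the background
  have hT := stab_finiteIndex o hof
  have hback : Finite (act o).range := by
    let f : G →* rightComm (stab o) := (act o).codRestrict (rightComm (stab o)) (by
      intro g h t ht
      rw [hact o ho, hact o ho, ← mul_assoc]
      congr 3
      funext k
      rw [← mul_assoc, ht])
    have h2 : Finite f.range := fpb_rightComm (stab o) hH G hfp (fun x => hG x) f
    have h3 : ((act o).range : Set (Equiv.Perm H)) ⊆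
        Subtype.val '' (f.range : Set (rightComm (stab o))) := by
      rintro _ ⟨g, rfl⟩
      exact ⟨f g, ⟨g, rfl⟩, rfl⟩
    exact ((Set.toFinite (f.range : Set (rightComm (stab o)))).image _).subset h3
  obtain ⟨e, he⟩ : ∃ e : ℕ, ∀ y, {z | ∃ g, act o g y = z}.encard ≤ e := by
    have hfr : ((act o).range : Set (Equiv.Perm H)).Finite := hback
    refine ⟨hfr.toFinset.card, fun y => ?_⟩
    have hsub : {z | ∃ g, act o g y = z} ⊆
        (fun π : Equiv.Perm H => π y) '' ((act o).range : Set (Equiv.Perm H)) := by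
      rintro z ⟨g, rfl⟩
      exact ⟨act o g, ⟨g, rfl⟩, rfl⟩
    refine (Set.encard_le_encard hsub).trans ((Set.encard_image_le _ _).trans ?_)
    rw [Set.Finite.encard_eq_coe_toFinset_card hfr]
  obtain ⟨r, hr⟩ : ∃ r : ℕ, ∀ s ∈ hS'f.toFinset, {h | ∃ ω ∈ X, c s ω = h}.encard ≤ r := by
    refine ⟨hS'f.toFinset.sup fun s => (hfin s).toFinset.card, fun s hs => ?_⟩
    rw [Set.Finite.encard_eq_coe_toFinset_card (hfin s)]
    exact_mod_cast Finset.le_sup (f := fun s => (hfin s).toFinset.card) hs
  set m : ℕ := W0.card + e + r + (B.card + 1) with hm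
  obtain ⟨N, hN, hNf, hmain⟩ := HP G hG S hS m
  refine ⟨N, hN, hNf, fun g hg ω hω => ?_⟩
  have hP : Prune S m X {o} act (fun y => W0.image fun w => w * y) := by
    have cast_le : ∀ a : ℕ, a ≤ m → (a : ℕ∞) ≤ m := fun a ha => by exact_mod_cast ha
    refine ⟨?_, ?_, ?_, ?_, ?_, ?_, ?_⟩
    · intro y
      exact Finset.mem_image.2 ⟨1, Finset.mem_insert_self _ _, one_mul y⟩
    · intro y
      exact Finset.card_image_le.trans (by omega)
    · intro k
      have hsub : {y | k ∈ W0.image fun w => w * y} ⊆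
          (fun w : H => w⁻¹ * k) '' (W0 : Set H) := by
        intro y hy
        obtain ⟨w, hw, hwy⟩ := Finset.mem_image.1 hy
        refine ⟨w, hw, ?_⟩
        show w⁻¹ * k = y
        rw [← hwy, inv_mul_cancel_left]
      refine (Set.encard_le_encard hsub).trans ((Set.encard_image_le _ _).trans ?_)
      rw [Set.encard_coe_eq_coe_finsetCard]
      exact cast_le _ (by omega)
    · intro s hs ω ω' hω hω' y hy
      have hω1 : ω ∈ X := hω.elim id (fun h => by
        rw [Set.mem_singleton_iff] at h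
        rw [h]
        exact ho)
      have hω2 : ω' ∈ X := hω'.elim id (fun h => by
        rw [Set.mem_singleton_iff] at h
        rw [h]
        exact ho)
      rw [hact ω hω1, hact ω' hω2]
      congr 1
      refine hW s _ (hX ω hω1 y) _ (hX ω' hω2 y) fun k hk => ?_
      refine hy _ (Finset.mem_image.2 ⟨k, ?_, rfl⟩)
      exact Finset.mem_insert_of_mem (Finset.mem_biUnion.2 ⟨s, hmem s hs, hk⟩)
    · intro o' ho' y
      rw [Set.mem_singleton_iff] at ho'
      subst ho'
      exact (he y).trans (cast_le _ (by omega))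
    · intro s hs y
      have hsub : {z | ∃ ω ∈ X, act ω s y = z} ⊆
          (fun h : H => h * y) '' {h | ∃ ω ∈ X, c s ω = h} := by
        rintro z ⟨ω, hω, rfl⟩
        exact ⟨c s (fun k => ω (k * y)), ⟨_, hX ω hω y, rfl⟩, (hact ω hω s y).symm⟩
      refine (Set.encard_le_encard hsub).trans ((Set.encard_image_le _ _).trans ?_)
      exact (hr s (hmem s hs)).trans (cast_le _ (by omega))
    · intro ω hω K
      obtain ⟨ω', hω', h3, h4⟩ := hirr ω hω K
      refine ⟨ω', hω', o, rfl, K ∪ Finset.image₂ (fun b k => b⁻¹ * k) B K,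
        Finset.subset_union_left, ?_, h3, ?_⟩
      · calc (K ∪ Finset.image₂ (fun b k => b⁻¹ * k) B K).card
            ≤ K.card + (Finset.image₂ (fun b k => b⁻¹ * k) B K).card := Finset.card_union_le _ _
          _ ≤ K.card + B.card * K.card := by
              gcongr
              exact Finset.card_image₂_le _ _ _
          _ = (B.card + 1) * K.card := by ring
          _ ≤ m * K.card := Nat.mul_le_mul_right _ (by omega)
      · intro k hk
        refine h4 k fun b hb hbk => hk ?_
        refine Finset.mem_union_right _ (Finset.mem_image₂.2 ⟨b, hb, b * k, hbk, ?_⟩)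
        rw [inv_mul_cancel_left]
  have h5 := hmain H A X {o} act _ hP ω hω g hg
  have h6 : act ω g 1 = 1 := by rw [h5]; rfl
  rw [hact ω hω g 1, mul_one] at h6
  simpa using h6

end main

end Vale.Agent.P192.R2.H51L
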