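import Vale.Agent.P192.R2.H51L.Irr

set_option linter.all false

/-! Topological full groups of strongly irreducible subshifts, from the pruning theorem. -/

namespace Vale.Agent.P192.R2.H51L

open Vale.Agent.P192 Vale.Agent.P192.R2.H360 Topology

/-- a locally constant function on a subshift has a window and finitely many values -/
theorem window_of_closed {H A T : Type} [Finite A] [TopologicalSpace A] [DiscreteTopology A]
    (X : Set (H → A)) (hX : IsClosed X) (c : X → T) (hc : IsLocallyConstant c) :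
    (∃ W : Finset H, ∀ ω ω' : X, (∀ k ∈ W, ω.1 k = ω'.1 k) → c ω = c ω') ∧
      (Set.range c).Finite := by
  classical
  have hcomp : CompactSpace X := isCompact_iff_compactSpace.1 hX.isCompact
  have h1 : ∀ ω : X, ∃ I : Finset H, ∀ ω' : X, (∀ i ∈ I, ω'.1 i = ω.1 i) → c ω' = c ω := by
    intro ω
    have h2 : IsOpen {x : X | c x = c ω} := hc.isOpen_fiber (c ω)
    obtain ⟨U, hU, hUe⟩ := isOpen_induced_iff.1 h2
    have h3 : ω.1 ∈ U := by
      have : ω ∈ Subtype.val ⁻¹' U := by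
        rw [hUe]
        rfl
      exact this
    obtain ⟨I, u, hu, hIu⟩ := isOpen_pi_iff.1 hU ω.1 h3
    refine ⟨I, fun ω' hω' => ?_⟩
    have h4 : ω'.1 ∈ U := hIu fun i hi => by
      rw [hω' i hi]
      exact (hu i hi).2
    have h5 : ω' ∈ Subtype.val ⁻¹' U := h4
    rw [hUe] at h5
    exact h5
  choose I hI using h1
  have hopen : ∀ ω : X, {ω' : X | ∀ i ∈ I ω, ω'.1 i = ω.1 i} ∈ 𝓝 ω := by
    intro ω
    have h2 : IsOpen {ω' : X | ∀ i ∈ I ω, ω'.1 i = ω.1 i} := by
      have : {ω' : X | ∀ i ∈ I ω, ω'.1 i = ω.1 i} =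
          ⋂ i ∈ I ω, (fun ω' : X => ω'.1 i) ⁻¹' {ω.1 i} := by
        ext x
        simp
      rw [this]
      refine isOpen_biInter_finset fun i _ => ?_
      exact (isOpen_discrete _).preimage ((continuous_apply i).comp continuous_subtype_val)
    exact h2.mem_nhds fun i _ => rfl
  obtain ⟨t, ht⟩ := CompactSpace.elim_nhds_subcover _ hopen
  have hcov : ∀ ω : X, ∃ x ∈ t, ∀ i ∈ I x, ω.1 i = x.1 i := by
    intro ω
    have : ω ∈ (⊤ : Set X) := trivial
    rw [← ht] at this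
    simpa using this
  refine ⟨⟨t.biUnion I, fun ω ω' h => ?_⟩, ?_⟩
  · obtain ⟨x, hx, hxω⟩ := hcov ω
    rw [hI x ω hxω, hI x ω' fun i hi => ?_]
    rw [← h i (Finset.mem_biUnion.2 ⟨x, hx, hi⟩), hxω i hi]
  · refine ((t.finite_toSet).image c).subset ?_
    rintro _ ⟨ω, rfl⟩
    obtain ⟨x, hx, hxω⟩ := hcov ω
    exact ⟨x, hx, (hI x ω hxω).symm⟩

section

variable {H A : Type} [Group H] [TopologicalSpace A] [DiscreteTopology A] {X : Set (H → A)}

/-- the values of the cocycle are determined by the map -/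
theorem cocycle_unique
    (hfree : ∀ h : H, h ≠ 1 → ∀ U : Set (H → A), IsOpen U → (U ∩ X).Nonempty →
      ∃ ω ∈ U ∩ X, (fun k => ω (k * h)) ≠ ω)
    {u v : X → H} (hu : IsLocallyConstant u) (hv : IsLocallyConstant v)
    (h : ∀ ω : X, (fun k => ω.1 (k * u ω)) = fun k => ω.1 (k * v ω)) : u = v := by
  funext ω₀
  by_contra hne
  have h2 : IsOpen ({x : X | u x = u ω₀} ∩ {x : X | v x = v ω₀}) :=
    (hu.isOpen_fiber (u ω₀)).inter (hv.isOpen_fiber (v ω₀))
  obtain ⟨U, hU, hUe⟩ := isOpen_induced_iff.1 h2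
  have h3 : ω₀.1 ∈ U := by
    have : ω₀ ∈ Subtype.val ⁻¹' U := by
      rw [hUe]
      exact ⟨rfl, rfl⟩
    exact this
  obtain ⟨ω, ⟨hωU, hωX⟩, hω⟩ := hfree ((u ω₀)⁻¹ * v ω₀)
    (fun h => hne (by rw [inv_mul_eq_one] at h; exact h)) U hU ⟨ω₀.1, h3, ω₀.2⟩
  apply hω
  have h4 : (⟨ω, hωX⟩ : X) ∈ Subtype.val ⁻¹' U := hωU
  rw [hUe] at h4
  have h5 := h ⟨ω, hωX⟩
  have h6 : u ⟨ω, hωX⟩ = u ω₀ := h4.1
  have h7 : v ⟨ω, hωX⟩ = v ω₀ := h4.2
  rw [h6, h7] at h5
  funext k
  have h8 := congrFun h5 (k * (u ω₀)⁻¹)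
  simp only [inv_mul_cancel_right] at h8
  rw [h8, mul_assoc]

/-- the map given by a locally constant cocycle is continuous -/
theorem continuous_of_cocycle (hX : ∀ ω ∈ X, ∀ h : H, (fun k => ω (k * h)) ∈ X)
    {u : X → H} (hu : IsLocallyConstant u) (π : X → X)
    (hπ : ∀ ω : X, (π ω).1 = fun k => ω.1 (k * u ω)) : Continuous π := by
  rw [continuous_iff_continuousAt]
  intro ω₀
  let σ : X → X := fun ω => ⟨fun k => ω.1 (k * u ω₀), hX _ ω.2 _⟩
  have hσ : Continuous σ := Continuous.subtype_mk (f := fun (ω : X) (k : H) => ω.1 (k * u ω₀))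
    (continuous_pi fun k => (continuous_apply (k * u ω₀)).comp continuous_subtype_val) _
  refine hσ.continuousAt.congr ?_
  have h2 : {x : X | u x = u ω₀} ∈ 𝓝 ω₀ := (hu.isOpen_fiber (u ω₀)).mem_nhds rfl
  filter_upwards [h2] with x hx
  apply Subtype.ext
  have hx' : u x = u ω₀ := hx
  rw [hπ x, hx']

end

/-- topological full groups of strongly irreducible subshifts -/
theorem irr_full (HP : PruneStmt) (H : Type) [Group H] (hH : FPB H) (A : Type) [Finite A]
    [TopologicalSpace A] [DiscreteTopology A] (X : Set (H → A)) (hXc : IsClosed X)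
    (hX : ∀ ω ∈ X, ∀ h : H, (fun k => ω (k * h)) ∈ X)
    (hfree : ∀ h : H, h ≠ 1 → ∀ U : Set (H → A), IsOpen U → (U ∩ X).Nonempty →
      ∃ ω ∈ U ∩ X, (fun k => ω (k * h)) ≠ ω)
    (o : H → A) (ho : o ∈ X) (hof : {σ : H → A | ∃ h, σ = fun k => o (k * h)}.Finite)
    (B : Finset H) (hirr : ∀ x ∈ X, ∀ y ∈ X, ∀ K : Finset H, ∃ z ∈ X, (∀ k ∈ K, z k = x k) ∧
      ∀ k, (∀ b ∈ B, b * k ∉ K) → z k = y k)
    (G : Type) [Group G] [Group.IsFinitelyPresented G] (hG : IsMulTorsion G)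
    (ρ : G →* Equiv.Perm X)
    (h : ∀ g, ∃ c : X → H, IsLocallyConstant c ∧
      ∀ ω : X, ((ρ g ω : X) : H → A) = fun k => (ω : H → A) (k * c ω)) :
    Finite ρ.range := by
  classical
  choose C hC hρ using h
  have e1 : C 1 = fun _ => 1 := by
    refine cocycle_unique hfree (hC 1) (IsLocallyConstant.const 1) fun ω => ?_
    rw [← hρ 1 ω, map_one]
    funext k
    simp
  have e2 : ∀ g g', C (g * g') = fun ω => C g (ρ g' ω) * C g' ω := by
    intro g g'
    have hcont : Continuous (ρ g') := continuous_of_cocycle hX (hC g') _ (hρ g')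
    have hl : IsLocallyConstant fun ω => C g (ρ g' ω) * C g' ω :=
      ((hC g).comp_continuous hcont).mul (hC g')
    refine cocycle_unique hfree (hC (g * g')) hl fun ω => ?_
    rw [← hρ (g * g') ω, map_mul, Equiv.Perm.mul_apply, hρ g (ρ g' ω), hρ g' ω]
    funext k
    show ω.1 (k * C g (ρ g' ω) * C g' ω) = ω.1 (k * (C g (ρ g' ω) * C g' ω))
    rw [mul_assoc]
  let c : G → (H → A) → H := fun g ω => if hω : ω ∈ X then C g ⟨ω, hω⟩ else 1
  have hcX : ∀ g ω (hω : ω ∈ X), c g ω = C g ⟨ω, hω⟩ := fun g ω hω => dif_pos hω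
  obtain ⟨N, hN, hNf, hmain⟩ := irr_cocycle HP hH hG X hX c
    (fun ω hω => by rw [hcX 1 ω hω, e1])
    (fun g g' ω hω => by
      have h3 : (fun k => ω (k * c g' ω)) ∈ X := hX ω hω _
      have h4 : (⟨fun k => ω (k * c g' ω), h3⟩ : X) = ρ g' ⟨ω, hω⟩ := by
        apply Subtype.ext
        rw [hρ g' ⟨ω, hω⟩]
        funext k
        show ω (k * c g' ω) = ω (k * C g' ⟨ω, hω⟩)
        rw [hcX g' ω hω]
      rw [hcX g _ h3, h4, hcX (g * g') ω hω, hcX g' ω hω, e2])
    (fun g => by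
      obtain ⟨W, hW⟩ := (window_of_closed X hXc (C g) (hC g)).1
      refine ⟨W, fun ω hω ω' hω' hk => ?_⟩
      rw [hcX g ω hω, hcX g ω' hω']
      exact hW _ _ hk)
    (fun g => by
      refine (window_of_closed X hXc (C g) (hC g)).2.subset ?_
      rintro _ ⟨ω, hω, rfl⟩
      exact ⟨⟨ω, hω⟩, (hcX g ω hω).symm⟩)
    o ho hof B (fun ω hω K => hirr ω hω o ho K)
  have hker : N ≤ ρ.ker := by
    intro g hg
    rw [MonoidHom.mem_ker]
    ext1 ω
    apply Subtype.ext
    have h3 := hmain g hg ω.1 ω.2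
    rw [hcX g ω.1 ω.2] at h3
    rw [hρ g ω]
    funext k
    have h4 : C g ω = 1 := h3
    rw [h4, mul_one]
    rfl
  have hki : ρ.ker.FiniteIndex := Subgroup.finiteIndex_of_le hker
  have : Finite (G ⧸ ρ.ker) := inferInstance
  exact Finite.of_equiv _ (QuotientGroup.quotientKerEquivRange ρ).toEquiv

/-- the topological full group of a strongly irreducible subshift over `H` with a periodic point is
in the class `F` iff `H` is -/
theorem irr_full_iff_of (HP : PruneStmt) (H : Type) [Group H] (A : Type) [Finite A]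
    [TopologicalSpace A] [DiscreteTopology A] (X : Set (H → A)) (hXc : IsClosed X)
    (hX : ∀ ω ∈ X, ∀ h : H, (fun k => ω (k * h)) ∈ X)
    (hfree : ∀ h : H, h ≠ 1 → ∀ U : Set (H → A), IsOpen U → (U ∩ X).Nonempty →
      ∃ ω ∈ U ∩ X, (fun k => ω (k * h)) ≠ ω)
    (hper : ∃ o ∈ X, {σ : H → A | ∃ h, σ = fun k => o (k * h)}.Finite)
    (hirr : ∃ B : Finset H, ∀ x ∈ X, ∀ y ∈ X, ∀ K : Finset H, ∃ z ∈ X, (∀ k ∈ K, z k = x k) ∧
      ∀ k, (∀ b ∈ B, b * k ∉ K) → z k = y k) :
    FPB H ↔ ∀ (G : Type) [Group G] [Group.IsFinitelyPresented G], (∀ x : G, IsOfFinOrder x) →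
      ∀ ρ : G →* Equiv.Perm X, (∀ g, ∃ c : X → H, IsLocallyConstant c ∧
        ∀ ω : X, ((ρ g ω : X) : H → A) = fun k => (ω : H → A) (k * c ω)) → Finite ρ.range := by
  obtain ⟨o, ho, hof⟩ := hper
  obtain ⟨B, hirr⟩ := hirr
  constructor
  · intro hH G _ _ hG ρ h
    exact irr_full HP H hH A X hXc hX hfree o ho hof B hirr G (fun x => hG x) ρ h
  · intro hall Γ _ hΓ ht f
    let σ : H →* Equiv.Perm X := MonoidHom.toHomPerm {
      toFun := fun h ω => ⟨fun k => ω.1 (k * h), hX _ ω.2 _⟩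
      map_one' := by
        funext ω
        apply Subtype.ext
        funext k
        show ω.1 (k * 1) = ω.1 k
        rw [mul_one]
      map_mul' := by
        intro a b
        funext ω
        apply Subtype.ext
        funext k
        show ω.1 (k * (a * b)) = ω.1 (k * a * b)
        rw [mul_assoc] }
    have hσ : Function.Injective σ := by
      rw [injective_iff_map_eq_one]
      intro a ha
      by_contra hne
      obtain ⟨ω, ⟨-, hωX⟩, hω⟩ := hfree a hne Set.univ isOpen_univ ⟨o, trivial, ho⟩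
      apply hω
      have h3 : σ a ⟨ω, hωX⟩ = ⟨ω, hωX⟩ := by rw [ha]; rfl
      exact congrArg Subtype.val h3
    have hr : Finite (σ.comp f).range := hall Γ ht (σ.comp f) fun g =>
      ⟨fun _ => f g, IsLocallyConstant.const _, fun ω => rfl⟩
    have hinj : Function.Injective (fun x : f.range => (⟨σ x.1, by
        obtain ⟨y, hy⟩ := x.2
        exact ⟨y, by rw [MonoidHom.comp_apply, hy]⟩⟩ : (σ.comp f).range)) := by
      intro x y hxy
      exact Subtype.ext (hσ (congrArg Subtype.val hxy))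
    exact Finite.of_injective _ hinj

end Vale.Agent.P192.R2.H51L
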