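import Vale.Agent.P192.R2.H51L.RNWords
import Vale.Agent.P192.H491.Explicit

/-!
# P192: Roever-Nekrashevych groups over automata of polynomial activity
-/

namespace Vale.Agent.P192.R2.H51L

open Set

theorem finiteState_of' {X : Type*} {g : TreeAut X}
    (h : {f : List X → List X | ∃ v, ∀ w, (g : Equiv.Perm (List X)) (v ++ w) =
      (g : Equiv.Perm (List X)) v ++ f w}.Finite) : FiniteState g := by
  have hinj : Function.Injective
      (fun s : TreeAut X => ((s : Equiv.Perm (List X)) : List X → List X)) := by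
    intro a b hab
    exact ta_ext fun w => congrFun hab w
  have h' := h.preimage (hinj.injOn (s := (fun s : TreeAut X =>
    ((s : Equiv.Perm (List X)) : List X → List X)) ⁻¹'
      {f : List X → List X | ∃ v, ∀ w, (g : Equiv.Perm (List X)) (v ++ w) =
        (g : Equiv.Perm (List X)) v ++ f w}))
  refine h'.subset ?_
  rintro _ ⟨v, rfl⟩
  exact ⟨v, fun w => sect_spec g v w⟩

theorem sect_polyAut {X : Type*} [Finite X] {g : TreeAut X} (hg : g ∈ PolyAut X) (v : List X) :
    sect g v ∈ PolyAut X := by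
  obtain ⟨h1, C, k, hC⟩ := hg
  refine ⟨h1.sect v, C * (v.length + 1) ^ k, k, fun n => ?_⟩
  have hinj : Set.InjOn (fun w : List X => v ++ w) {w | w.length = n ∧ sect (sect g v) w ≠ 1} :=
    fun a _ b _ h => List.append_cancel_left h
  have h2 : {w : List X | w.length = n ∧ sect (sect g v) w ≠ 1}.ncard ≤
      {w : List X | w.length = v.length + n ∧ sect g w ≠ 1}.ncard := by
    rw [← Set.ncard_image_of_injOn hinj]
    refine Set.ncard_le_ncard ?_ (words_finite _ _)
    rintro _ ⟨w, ⟨hw, hne⟩, rfl⟩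
    refine ⟨by rw [List.length_append, hw], ?_⟩
    rw [sect_append]
    exact hne
  refine h2.trans ((hC _).trans ?_)
  rw [mul_assoc, ← mul_pow]
  refine Nat.mul_le_mul_left C (Nat.pow_le_pow_left ?_ k)
  nlinarith [Nat.zero_le (v.length * n)]

/-- **Almost automorphisms of polynomial activity.** -/
theorem fpb_rn_poly (X : Type) [Finite X] (G : Subgroup (Equiv.Perm (Stream' X)))
    (hG : ∀ g ∈ G, ∃ n : ℕ, ∀ u : List X, u.length = n → ∃ (v : List X)
      (c : Equiv.Perm (List X)), (∀ w, (c w).length = w.length) ∧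
      (∀ w w', c w <+: c w' ↔ w <+: w') ∧
      {f : List X → List X | ∃ w, ∀ w', c (w ++ w') = c w ++ f w'}.Finite ∧
      (∃ C k : ℕ, ∀ n, {w : List X | w.length = n ∧
        ∃ w', c (w ++ w') ≠ c w ++ w'}.ncard ≤ C * (n + 1) ^ k) ∧
      ∀ (ξ : Stream' X) (m : ℕ), (g (u ++ₛ ξ)).take (v.length + m) = v ++ c (ξ.take m)) :
    FPB G := by
  refine fpb_rn_words X ((PolyAut X).map (TreeAut X).subtype) ?_ ?_ ?_ G ?_
  · exact fpb_of_injective ((Subgroup.equivMapOfInjective (PolyAut X) (TreeAut X).subtype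
      (TreeAut X).subtype_injective).symm.toMonoidHom) (MulEquiv.injective _) (fpb_polyAut X)
  · rintro _ ⟨c, -, rfl⟩ w
    exact c.2.1 w
  · rintro _ ⟨c, hc, rfl⟩ v
    exact ⟨_, ⟨sect c v, sect_polyAut hc v, rfl⟩, fun w => sect_spec c v w⟩
  · intro g hg
    obtain ⟨n, hn⟩ := hG g hg
    refine ⟨n, fun u hu => ?_⟩
    obtain ⟨v, c, hl, hp, hfs, ⟨C, k, hC⟩, hc⟩ := hn u hu
    have hmem : c ∈ TreeAut X := ⟨hl, hp⟩
    refine ⟨v, c, ⟨⟨c, hmem⟩, ⟨finiteState_of' hfs, C, k, fun n => ?_⟩, rfl⟩, hc⟩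
    refine le_trans (Set.ncard_le_ncard ?_ (words_finite n _)) (hC n)
    rintro w ⟨hw, hne⟩
    refine ⟨hw, ?_⟩
    by_contra hcon
    push Not at hcon
    apply hne
    apply ta_ext
    intro w'
    have h := sect_spec (⟨c, hmem⟩ : TreeAut X) w w'
    change c (w ++ w') = _ at h
    rw [hcon w'] at h
    exact (List.append_cancel_left h).symm

end Vale.Agent.P192.R2.H51L
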