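import Vale.Agent.P192.R2.H51L.Fpb

/-!
# P192: Roever-Nekrashevych groups
-/

namespace Vale.Agent.P192.R2.H51L

open Set

universe u

variable {X : Type u}

/-- infinite words with prefix `u` -/
def cone (u : List X) : Set (Stream' X) := {ξ | ∃ η : Stream' X, ξ = u ++ₛ η}

theorem mem_cone (u : List X) (η : Stream' X) : (u ++ₛ η) ∈ cone u := ⟨η, rfl⟩

theorem append_left_inj' {u v : List X} {ξ η : Stream' X} (h : u ++ₛ ξ = v ++ₛ η)
    (hl : u.length = v.length) : u = v ∧ ξ = η := by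
  have h1 : u = v := Stream'.append_left_injective _ _ _ _ h hl
  subst h1
  exact ⟨rfl, Stream'.append_right_injective _ _ _ h⟩

/-- two prefixes of an infinite word are comparable -/
theorem prefix_or {u v : List X} {ξ η : Stream' X} (h : u ++ₛ ξ = v ++ₛ η)
    (hl : u.length ≤ v.length) : ∃ w, v = u ++ w ∧ ξ = w ++ₛ η := by
  have h1 : v = v.take u.length ++ v.drop u.length := (List.take_append_drop _ _).symm
  rw [h1, Stream'.append_append_stream] at h
  obtain ⟨h2, h3⟩ := append_left_inj' h (by rw [List.length_take]; omega)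
  exact ⟨v.drop u.length, by rw [← h2] at h1; exact h1, h3⟩

theorem cone_mono (u w : List X) : cone (u ++ w) ⊆ cone u := by
  rintro _ ⟨η, rfl⟩
  rw [Stream'.append_append_stream]
  exact mem_cone u _

theorem cone_nonempty [Nonempty X] (u : List X) : (cone u).Nonempty := by
  obtain ⟨x⟩ := (inferInstance : Nonempty X)
  exact ⟨u ++ₛ Stream'.const x, mem_cone _ _⟩

theorem prefix_of_cone_subset [Nontrivial X] {u v : List X} (h : cone u ⊆ cone v) :
    ∃ w, u = v ++ w := by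
  obtain ⟨x, y, hxy⟩ := exists_pair_ne X
  obtain ⟨η, hη⟩ := h (mem_cone u (Stream'.const x))
  obtain ⟨ζ, hζ⟩ := h (mem_cone u (Stream'.const y))
  rcases le_total v.length u.length with hl | hl
  · obtain ⟨w, hw, -⟩ := prefix_or hη.symm hl
    exact ⟨w, hw⟩
  · obtain ⟨w, hw, h1⟩ := prefix_or hη hl
    obtain ⟨w', hw', h2⟩ := prefix_or hζ hl
    cases w with
    | nil => exact ⟨[], by rw [hw]; simp⟩
    | cons a w =>
      have h3 : w' = a :: w := by
        have := hw.symm.trans hw'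
        exact (List.append_cancel_left this).symm
      rw [h3] at h2
      have h4 := congrArg Stream'.head h1
      have h5 := congrArg Stream'.head h2
      rw [Stream'.cons_append_stream, Stream'.head_cons] at h4 h5
      exact absurd (h4.trans h5.symm) hxy

theorem cone_inj [Nontrivial X] {u v : List X} (h : cone u = cone v) : u = v := by
  obtain ⟨w, hw⟩ := prefix_of_cone_subset h.subset
  obtain ⟨w', hw'⟩ := prefix_of_cone_subset h.symm.subset
  have h1 : w ++ w' = [] := by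
    have h2 : u = u ++ (w' ++ w) := by
      conv_lhs => rw [hw, hw', List.append_assoc]
    have h3 := congrArg List.length h2
    have h4 : w' ++ w = [] := by
      rw [← List.length_eq_zero_iff]
      rw [List.length_append] at h3
      omega
    rw [List.append_eq_nil_iff] at h4 ⊢
    exact ⟨h4.2, h4.1⟩
  rw [List.append_eq_nil_iff] at h1
  rw [hw, h1.1, List.append_nil]

/-- a group of permutations of the infinite words is self-similar -/
def SelfSim (H : Subgroup (Equiv.Perm (Stream' X))) : Prop :=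
  ∀ h ∈ H, ∀ u : List X, ∃ v : List X, v.length = u.length ∧ ∃ k ∈ H, ∀ ξ,
    h (u ++ₛ ξ) = v ++ₛ k ξ

/-- `g` is `u ξ ↦ v h(ξ)` on the cone `U` of `u` -/
def RGood (H : Subgroup (Equiv.Perm (Stream' X))) (g : Equiv.Perm (Stream' X))
    (U : Set (Stream' X)) : Prop :=
  ∃ u v : List X, U = cone u ∧ ∃ h ∈ H, ∀ ξ, g (u ++ₛ ξ) = v ++ₛ h ξ

theorem image_cone {g : Equiv.Perm (Stream' X)}
    {u v : List X} {h : Equiv.Perm (Stream' X)} (hg : ∀ ξ, g (u ++ₛ ξ) = v ++ₛ h ξ) :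
    g '' cone u = cone v := by
  ext ζ
  constructor
  · rintro ⟨_, ⟨ξ, rfl⟩, rfl⟩
    rw [hg]
    exact mem_cone v _
  · rintro ⟨η, rfl⟩
    refine ⟨u ++ₛ (h⁻¹ η), mem_cone u _, ?_⟩
    rw [hg]
    simp

/-- the system of cones and almost automorphisms -/
def rnSim [Nontrivial X] (H : Subgroup (Equiv.Perm (Stream' X))) (hH : SelfSim H) :
    Sim (Stream' X) where
  B := range cone
  good := RGood H
  ne := by
    rintro _ ⟨u, rfl⟩
    exact cone_nonempty u
  nest := by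
    rintro _ ⟨u, rfl⟩ _ ⟨v, rfl⟩
    by_cases hd : Disjoint (cone u) (cone v)
    · exact Or.inr (Or.inr hd)
    rw [not_disjoint_iff] at hd
    obtain ⟨_, ⟨ξ, rfl⟩, ⟨η, h⟩⟩ := hd
    rcases le_total u.length v.length with hl | hl
    · obtain ⟨w, hw, -⟩ := prefix_or h hl
      exact Or.inr (Or.inl (by rw [hw]; exact cone_mono u w))
    · obtain ⟨w, hw, -⟩ := prefix_or h.symm hl
      exact Or.inl (by rw [hw]; exact cone_mono v w)
  fin := by
    rintro _ ⟨u, rfl⟩
    refine ((finite_Iic u.length).image (fun k => cone (u.take k))).subset ?_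
    rintro _ ⟨⟨v, rfl⟩, h⟩
    obtain ⟨w, hw⟩ := prefix_of_cone_subset h
    refine ⟨v.length, ?_, ?_⟩
    · rw [mem_Iic, hw, List.length_append]
      omega
    · change cone (u.take v.length) = cone v
      rw [hw, List.take_left']
      rfl
  one := by
    rintro _ ⟨u, rfl⟩
    exact ⟨u, u, rfl, 1, H.one_mem, fun ξ => rfl⟩
  img := by
    rintro g _ ⟨u', rfl⟩ ⟨u, v, hu, h, -, hg⟩
    rw [hu, image_cone hg]
    exact ⟨v, rfl⟩
  inv := by
    rintro g _ ⟨u', rfl⟩ ⟨u, v, hu, h, hh, hg⟩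
    rw [hu, image_cone hg]
    refine ⟨v, u, rfl, h⁻¹, H.inv_mem hh, fun ξ => ?_⟩
    have := hg (h⁻¹ ξ)
    have h1 : h (h⁻¹ ξ) = ξ := by simp
    rw [h1] at this
    rw [← this]
    simp
  mul := by
    rintro g k _ ⟨u', rfl⟩ ⟨u, v, hu, h, hh, hg⟩ ⟨a, b, ha, l, hl, hk⟩
    rw [hu, image_cone hg] at ha
    have hva := cone_inj ha
    subst hva
    refine ⟨u, b, hu, l * h, H.mul_mem hl hh, fun ξ => ?_⟩
    rw [Equiv.Perm.mul_apply, hg, hk]
    rfl
  res := by
    rintro g _ ⟨u', rfl⟩ _ ⟨w, rfl⟩ hsub ⟨u, v, hu, h, hh, hg⟩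
    rw [hu] at hsub
    obtain ⟨w', hw'⟩ := prefix_of_cone_subset hsub
    obtain ⟨v', -, k, hk, hk'⟩ := hH h hh w'
    refine ⟨w, v ++ v', rfl, k, hk, fun ξ => ?_⟩
    rw [hw', Stream'.append_append_stream, hg, hk', Stream'.append_append_stream]

/-- the local group at a cone -/
def coneGroup (H : Subgroup (Equiv.Perm (Stream' X))) (u : List X) :
    Subgroup (Equiv.Perm (cone u)) where
  carrier := {σ | ∃ h ∈ H, ∀ ξ, (σ ⟨u ++ₛ ξ, mem_cone u ξ⟩ : Stream' X) = u ++ₛ h ξ}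
  one_mem' := ⟨1, H.one_mem, fun ξ => rfl⟩
  mul_mem' := by
    rintro σ τ ⟨h, hh, h1⟩ ⟨k, hk, h2⟩
    refine ⟨h * k, H.mul_mem hh hk, fun ξ => ?_⟩
    have h3 : τ ⟨u ++ₛ ξ, mem_cone u ξ⟩ = ⟨u ++ₛ k ξ, mem_cone u _⟩ := Subtype.ext (h2 ξ)
    rw [Equiv.Perm.mul_apply, h3, h1]
    rfl
  inv_mem' := by
    rintro σ ⟨h, hh, h1⟩
    refine ⟨h⁻¹, H.inv_mem hh, fun ξ => ?_⟩
    have h3 : σ ⟨u ++ₛ h⁻¹ ξ, mem_cone u _⟩ = ⟨u ++ₛ ξ, mem_cone u _⟩ := by
      apply Subtype.ext
      rw [h1]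
      simp
    rw [← h3]
    simp

theorem fpb_coneGroup (H : Subgroup (Equiv.Perm (Stream' X))) (hH : FPB H) (u : List X) :
    FPB (coneGroup H u) := by
  choose f hf hf' using fun σ : coneGroup H u => σ.2
  let φ : coneGroup H u →* H := MonoidHom.mk' (fun σ => ⟨f σ, hf σ⟩) (by
    intro σ τ
    apply Subtype.ext
    apply Equiv.ext
    intro ξ
    have h1 := hf' (σ * τ) ξ
    have h2 : (τ : Equiv.Perm (cone u)) ⟨u ++ₛ ξ, mem_cone u ξ⟩ = ⟨u ++ₛ f τ ξ, mem_cone u _⟩ :=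
      Subtype.ext (hf' τ ξ)
    have h3 : ((σ * τ : coneGroup H u) : Equiv.Perm (cone u)) ⟨u ++ₛ ξ, mem_cone u ξ⟩ =
      (σ : Equiv.Perm (cone u)) ((τ : Equiv.Perm (cone u)) ⟨u ++ₛ ξ, mem_cone u ξ⟩) := rfl
    rw [h3, h2, hf' σ] at h1
    exact (Stream'.append_right_injective _ _ _ h1).symm)
  refine fpb_of_injective φ ?_ hH
  intro σ τ h
  have h1 : f σ = f τ := congrArg Subtype.val h
  apply Subtype.ext
  apply Equiv.ext
  rintro ⟨_, ⟨ξ, rfl⟩⟩
  apply Subtype.ext
  have h2 := hf' σ ξ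
  have h3 := hf' τ ξ
  rw [h1] at h2
  exact h2.trans h3.symm

/-- **Roever-Nekrashevych groups** -/
theorem fpb_rn (X : Type u) [Finite X] (H : Subgroup (Equiv.Perm (Stream' X))) (hH : FPB H)
    (hs : SelfSim H) (G : Subgroup (Equiv.Perm (Stream' X)))
    (hG : ∀ g ∈ G, ∃ n : ℕ, ∀ u : List X, u.length = n → ∃ v : List X, ∃ h ∈ H, ∀ ξ,
      g (u ++ₛ ξ) = v ++ₛ h ξ) : FPB G := by
  rcases subsingleton_or_nontrivial X with hX | hX
  · have : Subsingleton (Stream' X) := inferInstanceAs (Subsingleton (ℕ → X))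
    exact fpb_of_finite _
  refine fpb_sim (rnSim H hs) G ?_ ?_
  · intro g hg
    obtain ⟨n, hn⟩ := hG g hg
    refine ⟨cone '' {u : List X | u.length = n}, (List.finite_length_eq X n).image _, ?_, ?_, ?_⟩
    · rintro _ ⟨u, -, rfl⟩
      exact ⟨u, rfl⟩
    · rw [eq_univ_iff_forall]
      intro ξ
      refine ⟨cone (ξ.take n), ⟨_, Stream'.length_take n ξ, rfl⟩, ξ.drop n, ?_⟩
      exact (Stream'.append_take_drop n ξ).symm
    · rintro _ ⟨u, hu, rfl⟩
      obtain ⟨v, h, hh, h1⟩ := hn u hu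
      exact ⟨u, v, rfl, h, hh, h1⟩
  · rintro _ ⟨u', rfl⟩
    refine ⟨coneGroup H u', fpb_coneGroup H hH u', ?_⟩
    rintro g - ⟨u, v, hu, h, hh, h1⟩ h2
    have hu' := cone_inj hu
    subst hu'
    rw [image_cone h1] at h2
    have hv := cone_inj h2
    subst hv
    have hmem : ∀ x, x ∈ cone v ↔ g x ∈ cone v := by
      intro x
      constructor
      · rintro ⟨ξ, rfl⟩
        rw [h1]
        exact mem_cone v _
      · rintro ⟨ζ, hζ⟩
        have h3 : g (v ++ₛ h⁻¹ ζ) = g x := by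
          rw [h1, hζ]
          simp
        rw [← g.injective h3]
        exact mem_cone v _
    exact ⟨g.subtypePerm (fun x => (hmem x).symm), ⟨h, hh, fun ξ => h1 ξ⟩, fun x => rfl⟩

end Vale.Agent.P192.R2.H51L
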