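import Vale.Agent.P192.R2.H51L.RN

/-!
# P192: Roever-Nekrashevych groups over groups acting on finite words
-/

namespace Vale.Agent.P192.R2.H51L

open Set

universe u

variable {X : Type u}

/-- extension of a length preserving map to infinite words -/
def hatFun (c : List X → List X) (hc : ∀ w, (c w).length = w.length) (ξ : Stream' X) :
    Stream' X := fun n => (c (ξ.take (n + 1)))[n]'(by rw [hc, Stream'.length_take]; omega)

theorem take_hatFun (c : List X → List X) (hc : ∀ w, (c w).length = w.length)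
    (hp : ∀ v w, c v <+: c (v ++ w)) (ξ : Stream' X) (k : ℕ) :
    (hatFun c hc ξ).take k = c (ξ.take k) := by
  apply List.ext_getElem
  · rw [Stream'.length_take, hc, Stream'.length_take]
  · intro i h1 h2
    rw [Stream'.take_get]
    have hik : i < k := by rwa [Stream'.length_take] at h1
    have h3 : ξ.take (i + 1) ++ ((ξ.drop (i + 1)).take (k - (i + 1))) = ξ.take k := by
      rw [← Stream'.take_add]
      congr 1
      omega
    have h4 := hp (ξ.take (i + 1)) ((ξ.drop (i + 1)).take (k - (i + 1)))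
    rw [h3] at h4
    exact h4.getElem (i := i) (by rw [hc, Stream'.length_take]; omega)

/-- extension of a permutation of the words -/
def hatPerm (c : Equiv.Perm (List X)) (hc : ∀ w, (c w).length = w.length)
    (hp : ∀ v w, c v <+: c (v ++ w)) (hc' : ∀ w, (c⁻¹ w).length = w.length)
    (hp' : ∀ v w, c⁻¹ v <+: c⁻¹ (v ++ w)) : Equiv.Perm (Stream' X) where
  toFun := hatFun c hc
  invFun := hatFun (c⁻¹ : Equiv.Perm (List X)) hc'
  left_inv := by
    intro ξ
    apply Stream'.take_theorem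
    intro n
    rw [take_hatFun _ hc' hp', take_hatFun _ hc hp]
    simp
  right_inv := by
    intro ξ
    apply Stream'.take_theorem
    intro n
    rw [take_hatFun _ hc hp, take_hatFun _ hc' hp']
    simp

theorem take_hatPerm (c : Equiv.Perm (List X)) (hc : ∀ w, (c w).length = w.length)
    (hp : ∀ v w, c v <+: c (v ++ w)) (hc' : ∀ w, (c⁻¹ w).length = w.length)
    (hp' : ∀ v w, c⁻¹ v <+: c⁻¹ (v ++ w)) (ξ : Stream' X) (k : ℕ) :
    (hatPerm c hc hp hc' hp' ξ).take k = c (ξ.take k) :=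
  take_hatFun c hc hp ξ k

theorem exists_hat (C : Subgroup (Equiv.Perm (List X)))
    (hl : ∀ c ∈ C, ∀ w, (c w).length = w.length)
    (hs : ∀ c ∈ C, ∀ v, ∃ k ∈ C, ∀ w, c (v ++ w) = c v ++ k w) (c : Equiv.Perm (List X))
    (hc : c ∈ C) : ∃ σ : Equiv.Perm (Stream' X), ∀ ξ k, (σ ξ).take k = c (ξ.take k) := by
  have hp : ∀ c ∈ C, ∀ v w, c v <+: c (v ++ w) := by
    intro c hc v w
    obtain ⟨k, -, hk⟩ := hs c hc v
    rw [hk]
    exact ⟨k w, rfl⟩
  exact ⟨hatPerm c (hl c hc) (hp c hc) (hl _ (C.inv_mem hc)) (hp _ (C.inv_mem hc)),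
    fun ξ k => take_hatPerm c _ _ _ _ ξ k⟩

/-- the group acting on the infinite words -/
def hatGroup (C : Subgroup (Equiv.Perm (List X))) : Subgroup (Equiv.Perm (Stream' X)) where
  carrier := {σ | ∃ c ∈ C, ∀ ξ k, (σ ξ).take k = c (ξ.take k)}
  one_mem' := ⟨1, C.one_mem, fun ξ k => rfl⟩
  mul_mem' := by
    rintro σ τ ⟨c, hc, h1⟩ ⟨d, hd, h2⟩
    refine ⟨c * d, C.mul_mem hc hd, fun ξ k => ?_⟩
    rw [Equiv.Perm.mul_apply, h1, h2]
    rfl
  inv_mem' := by
    rintro σ ⟨c, hc, h1⟩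
    refine ⟨c⁻¹, C.inv_mem hc, fun ξ k => ?_⟩
    have h2 := h1 (σ⁻¹ ξ) k
    have h3 : σ (σ⁻¹ ξ) = ξ := by simp
    rw [h3] at h2
    rw [h2]
    simp

theorem fpb_hatGroup [Nonempty X] (C : Subgroup (Equiv.Perm (List X))) (hC : FPB C) :
    FPB (hatGroup C) := by
  choose f hf hf' using fun σ : hatGroup C => σ.2
  obtain ⟨x⟩ := (inferInstance : Nonempty X)
  have hword : ∀ w : List X, (w ++ₛ Stream'.const x).take w.length = w := by
    intro w
    have h := (Stream'.append_take 0 w (Stream'.const x)).symm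
    rwa [Stream'.take_zero, List.append_nil, Nat.add_zero] at h
  have huniq : ∀ σ τ : hatGroup C, (∀ ξ, (σ : Equiv.Perm (Stream' X)) ξ =
      (τ : Equiv.Perm (Stream' X)) ξ) → σ = τ :=
    fun σ τ h => Subtype.ext (Equiv.ext h)
  let φ : hatGroup C →* C := MonoidHom.mk' (fun σ => ⟨f σ, hf σ⟩) (by
    intro σ τ
    apply Subtype.ext
    apply Equiv.ext
    intro w
    change f (σ * τ) w = f σ (f τ w)
    have h1 := hf' (σ * τ) (w ++ₛ Stream'.const x) w.length
    have h2 : ((σ * τ : hatGroup C) : Equiv.Perm (Stream' X)) (w ++ₛ Stream'.const x) =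
      (σ : Equiv.Perm (Stream' X)) ((τ : Equiv.Perm (Stream' X)) (w ++ₛ Stream'.const x)) := rfl
    rw [h2, hf' σ, hf' τ, hword] at h1
    exact h1.symm)
  refine fpb_of_injective φ ?_ hC
  intro σ τ h
  have h1 : f σ = f τ := congrArg Subtype.val h
  apply huniq
  intro ξ
  apply Stream'.take_theorem
  intro n
  rw [hf', hf', h1]

theorem selfSim_hatGroup (C : Subgroup (Equiv.Perm (List X)))
    (hl : ∀ c ∈ C, ∀ w, (c w).length = w.length)
    (hs : ∀ c ∈ C, ∀ v, ∃ k ∈ C, ∀ w, c (v ++ w) = c v ++ k w) : SelfSim (hatGroup C) := by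
  rintro σ ⟨c, hc, hσ⟩ u
  obtain ⟨k, hk, hk'⟩ := hs c hc u
  obtain ⟨τ, hτ⟩ := exists_hat C hl hs k hk
  refine ⟨c u, hl c hc u, τ, ⟨k, hk, hτ⟩, fun ξ => ?_⟩
  apply Stream'.take_theorem
  intro n
  have key : ∀ m, (σ (u ++ₛ ξ)).take (u.length + m) = (c u ++ₛ τ ξ).take (u.length + m) := by
    intro m
    rw [hσ, ← Stream'.append_take, hk']
    conv_rhs => rw [← hl c hc u, ← Stream'.append_take, hτ]
  have h1 := congrArg (List.take n) (key n)
  rw [Stream'.take_take, Stream'.take_take] at h1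
  have h2 : min (u.length + n) n = n := by omega
  rwa [h2] at h1

/-- **Roever-Nekrashevych groups, groups of permutations of finite words** -/
theorem fpb_rn_words (X : Type u) [Finite X] (C : Subgroup (Equiv.Perm (List X))) (hC : FPB C)
    (hl : ∀ c ∈ C, ∀ w, (c w).length = w.length)
    (hs : ∀ c ∈ C, ∀ v, ∃ k ∈ C, ∀ w, c (v ++ w) = c v ++ k w)
    (G : Subgroup (Equiv.Perm (Stream' X)))
    (hG : ∀ g ∈ G, ∃ n : ℕ, ∀ u : List X, u.length = n → ∃ v : List X, ∃ c ∈ C, ∀ ξ m,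
      (g (u ++ₛ ξ)).take (v.length + m) = v ++ c (ξ.take m)) : FPB G := by
  rcases isEmpty_or_nonempty X with hX | hX
  · have : IsEmpty (Stream' X) := ⟨fun ξ => hX.elim (ξ.get 0)⟩
    exact fpb_of_finite _
  refine fpb_rn X (hatGroup C) (fpb_hatGroup C hC) (selfSim_hatGroup C hl hs) G ?_
  intro g hg
  obtain ⟨n, hn⟩ := hG g hg
  refine ⟨n, fun u hu => ?_⟩
  obtain ⟨v, c, hc, h⟩ := hn u hu
  obtain ⟨σ, hσ⟩ := exists_hat C hl hs c hc
  refine ⟨v, σ, ⟨c, hc, hσ⟩, fun ξ => ?_⟩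
  apply Stream'.take_theorem
  intro m
  have key : (g (u ++ₛ ξ)).take (v.length + m) = (v ++ₛ σ ξ).take (v.length + m) := by
    rw [h, ← Stream'.append_take, hσ]
  have h1 := congrArg (List.take m) key
  rw [Stream'.take_take, Stream'.take_take] at h1
  have h2 : min (v.length + m) m = m := by omega
  rwa [h2] at h1

end Vale.Agent.P192.R2.H51L
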