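import Vale.Agent.P192.R2.H360.VCoarse
import Vale.Agent.P192.R2.H360.Main
import Vale.Agent.P192.R2.H102.LineU
import Vale.Agent.P192.R2.H40.TLine

set_option linter.all false

/-! Products of actions of two virtually cyclic groups: the uniform theorem. -/

namespace Vale.Agent.P192.R2.H51L

open Vale.Agent.P192.R2.H360

open VC642 in
/-- orbits of a virtually cyclic (or finite) group are coarse lines, with displacement bounds that
do not depend on the action -/
theorem vc_coarse_uniform (E : Type) [Group E] (t : E) (ht : (Subgroup.zpowers t).FiniteIndex) :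
    ∃ (k : ℕ) (C : E → ℕ), ∀ (U : Type) [MulAction E U], ∃ (I : Type) (p : U → I × ℤ),
      Coarse k p ∧ ∀ e u, (p (e • u)).1 = (p u).1 ∧ |(p (e • u)).2 - (p u).2| ≤ C e := by
  haveI : Finite (Q t) := Subgroup.finite_quotient_of_finiteIndex
  haveI : Fintype (Q t) := Fintype.ofFinite _
  choose R J h using fun (e : E) (r : Q t) => key1 t (e * Quotient.out r)
  refine ⟨Fintype.card (Q t × Bool), fun e => ∑ r, (J e r).natAbs + ∑ r, (J e⁻¹ r).natAbs,
    fun U _ => ?_⟩
  refine ⟨Quotient (MulAction.orbitRel E U),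
    fun u => (Quotient.mk (MulAction.orbitRel E U) u, (c t u : ℤ)), ?_, ?_⟩
  · rintro ⟨o, z⟩
    have hsub : {u : U | (Quotient.mk (MulAction.orbitRel E U) u, (c t u : ℤ)) = (o, z)} ⊆
        (fun x : Q t × Bool =>
          Quotient.out x.1 • (t ^ (if x.2 then z else -z)) • (Quotient.out o : U)) ''
            (Set.univ : Set (Q t × Bool)) := by
      intro u hu
      simp only [Set.mem_setOf_eq, Prod.mk.injEq] at hu
      obtain ⟨ho, hz⟩ := hu
      obtain ⟨r, j, hj, hu⟩ := c_spec t u
      have hb : base (E := E) u = Quotient.out o := by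
        unfold base
        rw [ho]
      rw [hb] at hu
      have hjz : j = z ∨ j = -z := by omega
      rcases hjz with hjz | hjz
      · refine ⟨(r, true), Set.mem_univ _, ?_⟩
        simp only [if_true]
        rw [← hjz]
        exact hu.symm
      · refine ⟨(r, false), Set.mem_univ _, ?_⟩
        simp only [Bool.false_eq_true, if_false]
        rw [← hjz]
        exact hu.symm
    refine (Set.encard_le_encard hsub).trans ((Set.encard_image_le _ _).trans ?_)
    rw [Set.encard_univ]
    simp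
  · intro e u
    refine ⟨?_, ?_⟩
    · apply Quotient.sound
      exact MulAction.mem_orbit u e
    · have h1 := c_le t R J h e u
      have h2 := c_le t R J h e⁻¹ (e • u)
      rw [inv_smul_smul] at h2
      show |((c t (e • u) : ℕ) : ℤ) - ((c t u : ℕ) : ℤ)| ≤
        ((∑ r, (J e r).natAbs + ∑ r, (J e⁻¹ r).natAbs : ℕ) : ℤ)
      rw [abs_le]
      constructor <;> omega

theorem lstmt : LStmt := Vale.Agent.P192.R2.H102.lstmt_of fun G _ _ => uniform G

theorem vc_uniform (G : Type) [Group G] [Group.IsFinitelyPresented G] (hG : IsMulTorsion G)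
    (S : Set G) (hS : Subgroup.closure S = ⊤) (E F : Type) [Group E] [Group F] (t : E) (s : F)
    (ht : (Subgroup.zpowers t).FiniteIndex) (hs : (Subgroup.zpowers s).FiniteIndex)
    (m : ℕ) (K : Set (E × F)) (hK : K.Finite) :
    ∃ N : Subgroup G, N.Normal ∧ N.FiniteIndex ∧
      ∀ (U V : Type) [MulAction E U] [MulAction F V] (ρ : G →* Equiv.Perm (U × V)),
        (∀ x, (x ∈ S ∨ x⁻¹ ∈ S) → ∃ (a : U → Fin m) (b : V → Fin m) (f : Fin m → Fin m → E × F),
          (∀ α β, f α β ∈ K) ∧
          ∀ u v, ρ x (u, v) = ((f (a u) (b v)).1 • u, (f (a u) (b v)).2 • v)) →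
        ∀ g ∈ N, ρ g = 1 := by
  classical
  obtain ⟨k₁, C₁, h₁⟩ := vc_coarse_uniform E t ht
  obtain ⟨k₂, C₂, h₂⟩ := vc_coarse_uniform F s hs
  set M : ℕ := hK.toFinset.sup fun z => max (C₁ z.1) (C₂ z.2) with hM
  obtain ⟨N, hN, hN', hmain⟩ := lstmt G hG S hS (max m M) (max k₁ k₂)
  refine ⟨N, hN, hN', fun U V _ _ ρ h g hg => ?_⟩
  obtain ⟨I, p, hp, hpe⟩ := h₁ U
  obtain ⟨J, q, hq, hqf⟩ := h₂ V
  refine hmain U V I J p q (hp.mono (le_max_left _ _)) (hq.mono (le_max_right _ _)) ρ
    (fun x hx => ?_) g hg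
  obtain ⟨a, b, f, hfK, hf⟩ := h x hx
  have hle : ∀ α β, C₁ (f α β).1 ≤ M ∧ C₂ (f α β).2 ≤ M := by
    intro α β
    have h1 := Finset.le_sup (f := fun z : E × F => max (C₁ z.1) (C₂ z.2))
      (hK.mem_toFinset.2 (hfK α β))
    exact ⟨(le_max_left _ _).trans h1, (le_max_right _ _).trans h1⟩
  refine LType.of_parts (le_max_left m M) (le_max_right m M) a b
    (fun u β => (f (a u) β).1 • u) (fun α v => (f α (b v)).2 • v) ?_ ?_ hf
  · intro u β
    refine ⟨(hpe _ u).1, (hpe _ u).2.trans ?_⟩
    exact_mod_cast (hle (a u) β).1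
  · intro α v
    refine ⟨(hqf _ v).1, (hqf _ v).2.trans ?_⟩
    exact_mod_cast (hle α (b v)).2

end Vale.Agent.P192.R2.H51L
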